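import Vale.Agent.Lib.P331.Run

/-!
The block rule: levels relative to an anchor `W`, selected blocks, and the pointwise gain bound.
-/

open scoped ENNReal NNReal

namespace Vale.Agent.Lib.P331

open Classical

set_option linter.unusedSectionVars false

variable {E : Type} [Fintype E]

/-- Elements of value at least `W / 2 ^ n`. -/
def lvlSet (W : ℝ≥0) (u : E → ℝ≥0) (n : ℕ) : Set E := {f | W ≤ u f * 2 ^ n}

/-- Elements whose shifted level is below `x`. -/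
def Cs (W : ℝ≥0) (u : E → ℝ≥0) (θ x : ℕ) : Set E := {f | ∃ n, n + θ < x ∧ W ≤ u f * 2 ^ n}

/-- Sample-role elements. -/
def Yset (ρ : E → Fin 3) : Set E := {f | ρ f ≠ 2}

/-- Thin-sample-role elements. -/
def R2set (ρ : E → Fin 3) : Set E := {f | ρ f = 1}

/-- The level of a value `x` relative to the anchor `W`. -/
noncomputable def lev (W x : ℝ≥0) : ℕ := sInf {n : ℕ | W ≤ x * 2 ^ n}

lemma le_mul_pow_mono {W x : ℝ≥0} {m n : ℕ} (h : W ≤ x * 2 ^ m) (hmn : m ≤ n) : W ≤ x * 2 ^ n := by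
  refine le_trans h ?_
  gcongr
  norm_num

lemma lev_le {W x : ℝ≥0} {n : ℕ} (h : W ≤ x * 2 ^ n) : lev W x ≤ n := Nat.sInf_le h

lemma lev_spec {W x : ℝ≥0} {n : ℕ} (h : W ≤ x * 2 ^ n) : W ≤ x * 2 ^ lev W x :=
  Nat.sInf_mem (s := {n : ℕ | W ≤ x * 2 ^ n}) ⟨n, h⟩

lemma not_le_of_lt_lev {W x : ℝ≥0} {m : ℕ} (h : m < lev W x) : ¬ W ≤ x * 2 ^ m :=
  Nat.notMem_of_lt_sInf h

lemma lt_of_lev_lt {W x y : ℝ≥0} {n : ℕ} (hy : W ≤ y * 2 ^ n) (hlt : lev W y < lev W x) : x < y := by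
  have h1 := lev_spec hy
  have h2 := not_le_of_lt_lev hlt
  push Not at h2
  have h3 : x * 2 ^ lev W y < y * 2 ^ lev W y := lt_of_lt_of_le h2 h1
  exact lt_of_mul_lt_mul_right h3 zero_le

lemma mem_Cs_iff {W : ℝ≥0} {u : E → ℝ≥0} {θ x : ℕ} {f : E} {n : ℕ} (hf : W ≤ u f * 2 ^ n) :
    f ∈ Cs W u θ x ↔ lev W (u f) + θ < x := by
  constructor
  · rintro ⟨m, hm, hm2⟩
    have := lev_le hm2
    omega
  · intro h
    exact ⟨_, h, lev_spec hf⟩

lemma has_lev_of_mem_Cs {W : ℝ≥0} {u : E → ℝ≥0} {θ x : ℕ} {f : E} (h : f ∈ Cs W u θ x) :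
    ∃ n, W ≤ u f * 2 ^ n := by
  obtain ⟨m, _, hm2⟩ := h
  exact ⟨m, hm2⟩

lemma Cs_mono {W : ℝ≥0} {u : E → ℝ≥0} {θ x y : ℕ} (h : x ≤ y) : Cs W u θ x ⊆ Cs W u θ y := by
  rintro f ⟨m, hm, hm2⟩
  exact ⟨m, by omega, hm2⟩

lemma Cs_eq_lvl {W : ℝ≥0} {u : E → ℝ≥0} {θ x : ℕ} (h : θ < x) :
    Cs W u θ x = lvlSet W u (x - θ - 1) := by
  ext f
  constructor
  · rintro ⟨m, hm, hm2⟩
    exact le_mul_pow_mono hm2 (by omega)
  · intro h1
    exact ⟨x - θ - 1, by omega, h1⟩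

lemma lvlSet_mono {W : ℝ≥0} {u : E → ℝ≥0} {m n : ℕ} (h : m ≤ n) : lvlSet W u m ⊆ lvlSet W u n :=
  fun _ hf => le_mul_pow_mono hf h

/-- The flat generators of block `t`. -/
def DD (W : ℝ≥0) (u : E → ℝ≥0) (ρ : E → Fin 3) (L θ t : ℕ) : Set E :=
  (Yset ρ ∩ Cs W u θ (3 * L * t)) ∪ (R2set ρ ∩ Cs W u θ (3 * L * t + L - 1))

lemma R2_sub_Y (ρ : E → Fin 3) : R2set ρ ⊆ Yset ρ := by
  intro f hf
  have h1 : ρ f = 1 := hf
  show ρ f ≠ 2
  rw [h1]
  decide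

lemma DD_mono (W : ℝ≥0) (u : E → ℝ≥0) (ρ : E → Fin 3) (L θ : ℕ) (s t : ℕ) (h : s ≤ t) :
    DD W u ρ L θ s ⊆ DD W u ρ L θ t := by
  rcases Nat.eq_or_lt_of_le h with rfl | hlt
  · exact Set.Subset.refl _
  · have h1 : 3 * L * s ≤ 3 * L * t := Nat.mul_le_mul_left _ h
    have h2 : 3 * L * s + L - 1 ≤ 3 * L * t := by
      have : 3 * L * (s + 1) ≤ 3 * L * t := Nat.mul_le_mul_left _ hlt
      rw [Nat.mul_add] at this
      omega
    rintro f (⟨hf1, hf2⟩ | ⟨hf1, hf2⟩)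
    · exact Or.inl ⟨hf1, Cs_mono h1 hf2⟩
    · exact Or.inl ⟨R2_sub_Y ρ hf1, Cs_mono h2 hf2⟩

/-- Block index of a value. -/
noncomputable def tauOf (W x : ℝ≥0) (L θ : ℕ) : ℕ := (lev W x + θ) / (3 * L)

/-- Candidate condition for an arrival `e` of value `x`. -/
def Cand (M : Matroid E) (W : ℝ≥0) (u : E → ℝ≥0) (ρ : E → Fin 3) (L θ Λ : ℕ) (e : E) (x : ℝ≥0) : Prop :=
  ρ e = 2 ∧ (∃ n, n ≤ Λ ∧ W ≤ x * 2 ^ n) ∧ (lev W x + θ) % (3 * L) < L ∧
    (e ∈ M.closure (Yset ρ ∩ Cs W u θ (3 * L * (tauOf W x L θ + 1))) ∨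
      θ + Λ < 3 * L * (tauOf W x L θ + 1))

/-- The block rule with anchor `W`, sample data `u` (used on sample-role elements only). -/
def blockAccept (M : Matroid E) (W : ℝ≥0) (u : E → ℝ≥0) (ρ : E → Fin 3) (L θ Λ : ℕ)
    (A : Finset E) (e : E) (x : ℝ≥0) : Prop :=
  Cand M W u ρ L θ Λ e x ∧ e ∉ M.closure (DD W u ρ L θ (tauOf W x L θ) ∪ (A : Set E))

/-- The candidate set for weights `u`. -/
noncomputable def NN (M : Matroid E) (W : ℝ≥0) (u : E → ℝ≥0) (ρ : E → Fin 3) (L θ Λ : ℕ) : Finset E :=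
  Finset.univ.filter (fun e => Cand M W u ρ L θ Λ e (u e))

/-- A fixed injective numbering of `E`. -/
noncomputable def idx (e : E) : ℕ := (Fintype.equivFin E e).val

lemma idx_inj : Function.Injective (idx : E → ℕ) := by
  intro a b h
  exact (Fintype.equivFin E).injective (Fin.ext h)

/-- Light-first order key. -/
noncomputable def keyL (W : ℝ≥0) (u : E → ℝ≥0) (f : E) : ℕᵒᵈ ×ₗ (ℝ≥0ᵒᵈ ×ₗ ℕ) :=
  toLex (OrderDual.toDual (lev W (u f)), toLex (OrderDual.toDual (u f), idx f))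

/-- Heavy-first order key. -/
noncomputable def keyH (u : E → ℝ≥0) (f : E) : ℝ≥0ᵒᵈ ×ₗ ℕ :=
  toLex (OrderDual.toDual (u f), idx f)

lemma keyL_inj (W : ℝ≥0) (u : E → ℝ≥0) : Function.Injective (keyL W u) := by
  intro a b h
  simp only [keyL, EmbeddingLike.apply_eq_iff_eq, Prod.mk.injEq] at h
  exact idx_inj h.2.2

lemma keyH_inj (u : E → ℝ≥0) : Function.Injective (keyH u) := by
  intro a b h
  simp only [keyH, EmbeddingLike.apply_eq_iff_eq, Prod.mk.injEq] at h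
  exact idx_inj h.2

lemma keyH_lt_iff {u : E → ℝ≥0} {f e : E} :
    keyH u f < keyH u e ↔ u e < u f ∨ (u f = u e ∧ idx f < idx e) := by
  simp only [keyH, Prod.Lex.toLex_lt_toLex]
  constructor
  · rintro (h | ⟨h1, h2⟩)
    · exact Or.inl (OrderDual.toDual_lt_toDual.1 h)
    · exact Or.inr ⟨OrderDual.toDual_inj.1 h1, h2⟩
  · rintro (h | ⟨h1, h2⟩)
    · exact Or.inl (OrderDual.toDual_lt_toDual.2 h)
    · exact Or.inr ⟨OrderDual.toDual_inj.2 h1, h2⟩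

lemma keyL_lt_iff {W : ℝ≥0} {u : E → ℝ≥0} {f e : E} :
    keyL W u f < keyL W u e ↔ lev W (u e) < lev W (u f) ∨
      (lev W (u f) = lev W (u e) ∧ keyH u f < keyH u e) := by
  simp only [keyL, keyH, Prod.Lex.toLex_lt_toLex]
  constructor
  · rintro (h | ⟨h1, h2⟩)
    · exact Or.inl (OrderDual.toDual_lt_toDual.1 h)
    · exact Or.inr ⟨OrderDual.toDual_inj.1 h1, h2⟩
  · rintro (h | ⟨h1, h2⟩)
    · exact Or.inl (OrderDual.toDual_lt_toDual.2 h)
    · exact Or.inr ⟨OrderDual.toDual_inj.2 h1, h2⟩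

/-- Rounded weight. -/
noncomputable def rw' (W x : ℝ≥0) : ℝ≥0 := W / 2 ^ lev W x

lemma rw'_le_of_has {W x : ℝ≥0} {n : ℕ} (h : W ≤ x * 2 ^ n) : rw' W x ≤ x := by
  unfold rw'
  have h1 := lev_spec h
  rw [div_le_iff₀ (by positivity)]
  exact h1

lemma rw'_anti {W x y : ℝ≥0} (h : lev W y ≤ lev W x) : rw' W x ≤ rw' W y := by
  unfold rw'
  apply div_le_div_of_nonneg_left zero_le (by positivity)
  exact pow_le_pow_right₀ (by norm_num) h

/-- The kept event of element `e`. -/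
def KeptEvt (M : Matroid E) (W : ℝ≥0) (u : E → ℝ≥0) (ρ : E → Fin 3) (L θ Λ : ℕ) (e : E) : Prop :=
  e ∈ NN M W u ρ L θ Λ ∧
    e ∉ M.closure (DD W u ρ L θ (tauOf W (u e) L θ) ∪
      {f | f ∈ NN M W u ρ L θ Λ ∧ tauOf W (u f) L θ = tauOf W (u e) L θ ∧ keyL W u f < keyL W u e})

/-- Pointwise gain bound of the block rule for every arrival list. -/
theorem block_gain {M : Matroid E} (hE : M.E = Set.univ) (W : ℝ≥0) (u : E → ℝ≥0) (ρ : E → Fin 3)
    (L θ Λ : ℕ) (hL : 0 < L) (l : List E) (hl : ∀ e, e ∈ l) :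
    ∑ e ∈ Finset.univ.filter (fun e => KeptEvt M W u ρ L θ Λ e), rw' W (u e)
      ≤ ∑ e ∈ l.foldl (runStep M (blockAccept M W u ρ L θ Λ) u) ∅, u e := by
  set N := NN M W u ρ L θ Λ with hNdef
  set D := DD W u ρ L θ with hDdef
  set τ : E → ℕ := fun f => tauOf W (u f) L θ with hτ
  have hD : ∀ s t, s ≤ t → D s ⊆ D t := fun s t h => DD_mono W u ρ L θ s t h
  have hN : ∀ e ∈ N, ∀ f ∈ N, τ e < τ f → e ∈ M.closure (D (τ f)) := by
    intro e he f hf hlt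
    have he' : Cand M W u ρ L θ Λ e (u e) := (Finset.mem_filter.1 he).2
    have hf' : Cand M W u ρ L θ Λ f (u f) := (Finset.mem_filter.1 hf).2
    obtain ⟨_, _, _, hB⟩ := he'
    obtain ⟨_, ⟨n, hn, hnW⟩, _, _⟩ := hf'
    have h3L : 0 < 3 * L := by omega
    have h1 : 3 * L * (τ e + 1) ≤ 3 * L * τ f := Nat.mul_le_mul_left _ hlt
    rcases hB with hB | hB
    · refine cl_mono ?_ hB
      rintro x ⟨hx1, hx2⟩
      exact Or.inl ⟨hx1, Cs_mono h1 hx2⟩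
    · exfalso
      have h2 : 3 * L * τ f ≤ lev W (u f) + θ := by
        have := Nat.div_mul_le_self (lev W (u f) + θ) (3 * L)
        calc 3 * L * τ f = (lev W (u f) + θ) / (3 * L) * (3 * L) := by
              simp only [hτ, tauOf]; ring
          _ ≤ _ := this
      have h3 := lev_le hnW
      have h4 : 3 * L * (τ e + 1) = 3 * L * (tauOf W (u e) L θ + 1) := rfl
      omega
  have hw : ∀ f e, keyL W u f < keyL W u e → rw' W (u f) ≤ rw' W (u e) := by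
    intro f e h
    apply rw'_anti
    rcases keyL_lt_iff.1 h with h1 | ⟨h1, _⟩
    · exact h1.le
    · exact h1.ge
  have hacc : ∀ (A : Finset E) e, blockAccept M W u ρ L θ Λ A e (u e) ↔
      e ∈ N ∧ e ∉ M.closure (D (τ e) ∪ (A : Set E)) := by
    intro A e
    simp only [blockAccept, hNdef, NN, Finset.mem_filter, Finset.mem_univ, true_and]
    rfl
  obtain ⟨hAN, hsum⟩ := chain_gain hE D τ N hD hN (keyL W u) (keyL_inj W u)
    (fun e => rw' W (u e)) hw (blockAccept M W u ρ L θ Λ) u hacc l hl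
  refine le_trans (le_trans (Finset.sum_le_sum_of_subset ?_) hsum) ?_
  · intro e he
    obtain ⟨h1, h2⟩ := (Finset.mem_filter.1 he).2
    refine Finset.mem_filter.2 ⟨h1, ?_⟩
    exact h2
  · apply Finset.sum_le_sum
    intro e he
    have he' : Cand M W u ρ L θ Λ e (u e) := (Finset.mem_filter.1 (hAN he)).2
    obtain ⟨_, ⟨n, _, hnW⟩, _, _⟩ := he'
    exact rw'_le_of_has hnW

end Vale.Agent.Lib.P331
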