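import Vale.Agent.Lib.P331.Defs

/-!
Matroid lemmas: independence over a set, greedy kept sets, exchange, and the chain bound.
-/

open scoped ENNReal NNReal

namespace Vale.Agent.Lib.P331

open Classical

variable {E : Type} {M : Matroid E}

lemma sub_cl (hE : M.E = Set.univ) (X : Set E) : X ⊆ M.closure X :=
  M.subset_closure X (by rw [hE]; exact Set.subset_univ _)

lemma cl_mono {X Y : Set E} (h : X ⊆ Y) : M.closure X ⊆ M.closure Y := M.closure_subset_closure h

lemma cl_sub_cl {X Y : Set E} (h : X ⊆ M.closure Y) : M.closure X ⊆ M.closure Y :=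
  M.closure_subset_closure_of_subset_closure h

/-- `I` is independent over `F`. -/
def IndepOver (M : Matroid E) (F : Set E) (I : Finset E) : Prop :=
  ∀ g ∈ I, g ∉ M.closure (F ∪ ((I : Set E) \ {g}))

lemma IndepOver.mono {F : Set E} {I J : Finset E} (h : IndepOver M F I) (hJ : J ⊆ I) :
    IndepOver M F J := by
  intro g hg hcl
  apply h g (hJ hg)
  refine cl_mono ?_ hcl
  apply Set.union_subset_union_right
  intro x hx
  exact ⟨hJ hx.1, hx.2⟩

lemma IndepOver.monoF {F G : Set E} {I : Finset E} (h : IndepOver M G I) (hF : F ⊆ G) :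
    IndepOver M F I := by
  intro g hg hcl
  apply h g hg
  exact cl_mono (Set.union_subset_union_left _ hF) hcl

lemma IndepOver.ins (hE : M.E = Set.univ) {F : Set E} {I : Finset E} {e : E}
    (h : IndepOver M F I) (he : e ∉ M.closure (F ∪ (I : Set E))) :
    IndepOver M F (insert e I) := by
  intro g hg hcl
  by_cases hge : g = e
  · subst hge
    apply he
    refine cl_mono ?_ hcl
    apply Set.union_subset_union_right
    intro x hx
    have := hx.1
    simp only [Finset.coe_insert, Set.mem_insert_iff, Finset.mem_coe] at this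
    rcases this with h1 | h1
    · exact absurd h1 hx.2
    · exact h1
  · have hgI : g ∈ I := by
      rcases Finset.mem_insert.1 hg with h1 | h1
      · exact absurd h1 hge
      · exact h1
    have hset : F ∪ (((insert e I : Finset E) : Set E) \ {g})
        = Insert.insert e (F ∪ ((I : Set E) \ {g})) := by
      ext x
      simp only [Finset.coe_insert, Set.mem_union, Set.mem_sdiff, Set.mem_insert_iff,
        Finset.mem_coe, Set.mem_singleton_iff]
      constructor
      · rintro (h1 | ⟨h1 | h1, h2⟩)
        · exact Or.inr (Or.inl h1)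
        · exact Or.inl h1
        · exact Or.inr (Or.inr ⟨h1, h2⟩)
      · rintro (h1 | h1 | ⟨h1, h2⟩)
        · subst h1
          exact Or.inr ⟨Or.inl rfl, fun h3 => hge h3.symm⟩
        · exact Or.inl h1
        · exact Or.inr ⟨Or.inr h1, h2⟩
    rw [hset] at hcl
    have hnot := h g hgI
    have hex := M.closure_exchange ⟨hcl, hnot⟩
    apply he
    refine cl_mono ?_ hex.1
    intro x hx
    rcases hx with rfl | h1 | h1
    · exact Or.inr hgI
    · exact Or.inl h1
    · exact Or.inr h1.1

/-- Modular property: elements independent over `F` do not help to span inside `closure F`. -/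
lemma mem_cl_of_indepOver (hE : M.E = Set.univ) {F P : Set E} {x : E} (hP : P ⊆ M.closure F)
    (hx : x ∈ M.closure F) (J : Finset E) (hJ : IndepOver M F J)
    (hcl : x ∈ M.closure (P ∪ (J : Set E))) : x ∈ M.closure P := by
  induction J using Finset.induction_on with
  | empty => simpa using hcl
  | insert j J' hj ih =>
    have hJ' : IndepOver M F J' := hJ.mono (Finset.subset_insert _ _)
    by_cases hc : x ∈ M.closure (P ∪ (J' : Set E))
    · exact ih hJ' hc
    · exfalso
      have hset : P ∪ ((insert j J' : Finset E) : Set E) = Insert.insert j (P ∪ (J' : Set E)) := by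
        ext y
        simp only [Finset.coe_insert, Set.mem_union, Set.mem_insert_iff, Finset.mem_coe]
        tauto
      rw [hset] at hcl
      have hex := M.closure_exchange ⟨hcl, hc⟩
      have hj' := hJ j (Finset.mem_insert_self _ _)
      apply hj'
      have hsub : Insert.insert x (P ∪ (J' : Set E)) ⊆ M.closure (F ∪ (((insert j J' : Finset E) : Set E) \ {j})) := by
        intro y hy
        rcases hy with rfl | h1 | h1
        · exact cl_mono Set.subset_union_left hx
        · exact cl_mono Set.subset_union_left (hP h1)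
        · apply sub_cl hE
          refine Or.inr ⟨by simp [Finset.mem_coe.1 h1], ?_⟩
          intro h2
          apply hj
          rw [Set.mem_singleton_iff.1 h2] at h1
          exact h1
      exact cl_sub_cl hsub hex.1

section Kept

variable {α : Type*} [LinearOrder α]

/-- The greedy kept set of `N` over `F` along the order given by `κ`. -/
noncomputable def kept (M : Matroid E) (F : Set E) (N : Finset E) (κ : E → α) : Finset E :=
  N.filter (fun e => e ∉ M.closure (F ∪ {f | f ∈ N ∧ κ f < κ e}))

lemma mem_kept {F : Set E} {N : Finset E} {κ : E → α} {e : E} :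
    e ∈ kept M F N κ ↔ e ∈ N ∧ e ∉ M.closure (F ∪ {f | f ∈ N ∧ κ f < κ e}) := by
  simp [kept]

/-- Every element of `N` is spanned by the kept elements up to it. -/
lemma mem_cl_kept (hE : M.E = Set.univ) {F : Set E} {N : Finset E} {κ : E → α} {x : E} (hx : x ∈ N) :
    x ∈ M.closure (F ∪ {k | k ∈ kept M F N κ ∧ κ k ≤ κ x}) := by
  by_contra hcon
  set B := N.filter (fun y => y ∉ M.closure (F ∪ {k | k ∈ kept M F N κ ∧ κ k ≤ κ y})) with hB
  have hBne : B.Nonempty := ⟨x, by simp [hB, hx, hcon]⟩
  obtain ⟨y, hyB, hmin⟩ := Finset.exists_min_image B κ hBne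
  have hyN : y ∈ N := (Finset.mem_filter.1 hyB).1
  have hyn := (Finset.mem_filter.1 hyB).2
  have hynk : y ∉ kept M F N κ := by
    intro hk
    apply hyn
    apply sub_cl hE
    exact Or.inr ⟨hk, le_refl _⟩
  have hyc : y ∈ M.closure (F ∪ {f | f ∈ N ∧ κ f < κ y}) := by
    by_contra h
    exact hynk (mem_kept.2 ⟨hyN, h⟩)
  apply hyn
  refine cl_sub_cl ?_ hyc
  rintro z (hz | ⟨hzN, hzlt⟩)
  · exact cl_mono Set.subset_union_left (sub_cl hE F hz)
  · have hzB : z ∉ B := by
      intro hzB
      exact absurd (hmin z hzB) (not_le.2 hzlt)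
    have hzc : z ∈ M.closure (F ∪ {k | k ∈ kept M F N κ ∧ κ k ≤ κ z}) := by
      by_contra h
      exact hzB (Finset.mem_filter.2 ⟨hzN, h⟩)
    refine cl_mono ?_ hzc
    apply Set.union_subset_union_right
    rintro k ⟨hk1, hk2⟩
    exact ⟨hk1, le_trans hk2 hzlt.le⟩

/-- A non-kept element is spanned by strictly earlier kept elements. -/
lemma mem_cl_kept_lt (hE : M.E = Set.univ) {F : Set E} {N : Finset E} {κ : E → α} {x : E} (hx : x ∈ N)
    (hxk : x ∉ kept M F N κ) :
    x ∈ M.closure (F ∪ {k | k ∈ kept M F N κ ∧ κ k < κ x}) := by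
  have hyc : x ∈ M.closure (F ∪ {f | f ∈ N ∧ κ f < κ x}) := by
    by_contra h
    exact hxk (mem_kept.2 ⟨hx, h⟩)
  refine cl_sub_cl ?_ hyc
  rintro z (hz | ⟨hzN, hzlt⟩)
  · exact cl_mono Set.subset_union_left (sub_cl hE F hz)
  · refine cl_mono ?_ (mem_cl_kept hE (F := F) (κ := κ) hzN)
    apply Set.union_subset_union_right
    rintro k ⟨hk1, hk2⟩
    exact ⟨hk1, lt_of_le_of_lt hk2 hzlt⟩

lemma kept_subset {F : Set E} {N : Finset E} {κ : E → α} : kept M F N κ ⊆ N :=
  Finset.filter_subset _ _

/-- The kept set is independent over `F`. -/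
lemma indepOver_kept (hE : M.E = Set.univ) {F : Set E} {N : Finset E} {κ : E → α}
    (hκ : Function.Injective κ) : IndepOver M F (kept M F N κ) := by
  have key : ∀ S : Finset E, S ⊆ kept M F N κ → IndepOver M F S := by
    intro S
    induction S using Finset.induction_on_max_value κ with
    | empty => intro _ g hg; simp at hg
    | insert a s has hmax ih =>
      intro hsub
      have hs : s ⊆ kept M F N κ := fun y hy => hsub (Finset.mem_insert_of_mem hy)
      apply (ih hs).ins hE
      have ha := mem_kept.1 (hsub (Finset.mem_insert_self a s))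
      intro hcl
      apply ha.2
      refine cl_mono ?_ hcl
      apply Set.union_subset_union_right
      intro y hy
      have hyN := kept_subset (hs hy)
      refine ⟨hyN, lt_of_le_of_ne (hmax y hy) ?_⟩
      intro h
      exact has (hκ h ▸ hy)
  exact key _ (Finset.Subset.refl _)

/-- Exchange step toward the kept set. -/
lemma exchange_step (hE : M.E = Set.univ) {F : Set E} {N I : Finset E} {κ : E → α}
    (hI : IndepOver M F I) {e : E} (heI : e ∈ I) (heN : e ∈ N)
    (hek : e ∉ kept M F N κ) :
    ∃ k, k ∈ kept M F N κ ∧ κ k < κ e ∧ k ∉ I ∧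
      k ∉ M.closure (F ∪ ((I.erase e : Finset E) : Set E)) := by
  by_contra hcon
  push Not at hcon
  have hecl := mem_cl_kept_lt hE heN hek
  have he := hI e heI
  apply he
  have hset : (I : Set E) \ {e} = ((I.erase e : Finset E) : Set E) := by
    ext x; simp [and_comm]
  rw [hset]
  refine cl_sub_cl ?_ hecl
  rintro z (hz | ⟨hz1, hz2⟩)
  · exact cl_mono Set.subset_union_left (sub_cl hE F hz)
  · by_cases hzI : z ∈ I
    · apply sub_cl hE
      refine Or.inr ?_
      simp only [Finset.coe_erase, Set.mem_sdiff, Finset.mem_coe, Set.mem_singleton_iff]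
      refine ⟨hzI, ?_⟩
      rintro rfl
      exact lt_irrefl _ hz2
    · exact hcon z hz1 hz2 hzI

/-- Minimum-type bound: a basis of `N` over `F` weighs at least the kept set, when the weights
increase along `κ`. -/
lemma sum_kept_le (hE : M.E = Set.univ) {F : Set E} {N : Finset E} {κ : E → α}
    (hκ : Function.Injective κ) (w : E → ℝ≥0) (hw : ∀ f e, κ f < κ e → w f ≤ w e) :
    ∀ (m : ℕ) (I : Finset E), (I \ kept M F N κ).card = m → I ⊆ N → IndepOver M F I →
      (∀ x ∈ N, x ∈ M.closure (F ∪ (I : Set E))) →
      ∑ e ∈ kept M F N κ, w e ≤ ∑ e ∈ I, w e := by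
  intro m
  induction m with
  | zero =>
    intro I hcard hIN hI hspan
    have hIK : I ⊆ kept M F N κ := by
      rw [Finset.card_eq_zero, Finset.sdiff_eq_empty_iff_subset] at hcard
      exact hcard
    have hKI : kept M F N κ ⊆ I := by
      intro k hk
      by_contra hkI
      have h1 := hspan k (kept_subset hk)
      apply indepOver_kept hE hκ k hk
      refine cl_mono ?_ h1
      apply Set.union_subset_union_right
      intro y hy
      refine ⟨hIK hy, ?_⟩
      rintro rfl
      exact hkI hy
    rw [Finset.Subset.antisymm hIK hKI]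
  | succ m ih =>
    intro I hcard hIN hI hspan
    obtain ⟨e, he⟩ : (I \ kept M F N κ).Nonempty := by
      rw [← Finset.card_pos]; omega
    have heI : e ∈ I := (Finset.mem_sdiff.1 he).1
    have hek : e ∉ kept M F N κ := (Finset.mem_sdiff.1 he).2
    have heN := hIN heI
    obtain ⟨k, hk, hlt, hkI, hkcl⟩ := exchange_step hE hI heI heN hek
    set I' := insert k (I.erase e) with hI'
    have hkI' : k ∉ I.erase e := fun h => hkI (Finset.mem_of_mem_erase h)
    have hsum : ∑ x ∈ I', w x + w e = ∑ x ∈ I, w x + w k := by
      rw [hI', Finset.sum_insert hkI', ← Finset.add_sum_erase I w heI]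
      ring
    have hcard' : (I' \ kept M F N κ).card = m := by
      have h1 : I' \ kept M F N κ = (I \ kept M F N κ).erase e := by
        ext x
        simp only [hI', Finset.mem_sdiff, Finset.mem_insert, Finset.mem_erase]
        constructor
        · rintro ⟨rfl | ⟨h1, h2⟩, h3⟩
          · exact absurd hk h3
          · exact ⟨h1, h2, h3⟩
        · rintro ⟨h1, h2, h3⟩
          exact ⟨Or.inr ⟨h1, h2⟩, h3⟩
      rw [h1, Finset.card_erase_of_mem he, hcard]
      rfl
    have hIN' : I' ⊆ N := by
      intro x hx
      rcases Finset.mem_insert.1 hx with rfl | h1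
      · exact kept_subset hk
      · exact hIN (Finset.mem_of_mem_erase h1)
    have hind' : IndepOver M F I' :=
      (hI.mono (Finset.erase_subset _ _)).ins hE hkcl
    have hecl : e ∈ M.closure (F ∪ (I' : Set E)) := by
      have h1 : k ∈ M.closure (Insert.insert e (F ∪ ((I.erase e : Finset E) : Set E))) := by
        refine cl_mono ?_ (hspan k (kept_subset hk))
        rintro y (hy | hy)
        · exact Or.inr (Or.inl hy)
        · by_cases hye : y = e
          · exact Or.inl hye
          · exact Or.inr (Or.inr (by simp [hye, Finset.mem_coe.1 hy]))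
      have h2 := M.closure_exchange ⟨h1, hkcl⟩
      refine cl_mono ?_ h2.1
      rintro y (rfl | h3 | h3)
      · exact Or.inr (by simp [hI'])
      · exact Or.inl h3
      · exact Or.inr (by
          simp only [hI', Finset.coe_insert, Set.mem_insert_iff]
          exact Or.inr h3)
    have hspan' : ∀ x ∈ N, x ∈ M.closure (F ∪ (I' : Set E)) := by
      intro x hx
      refine cl_sub_cl ?_ (hspan x hx)
      rintro y (hy | hy)
      · exact sub_cl hE _ (Or.inl hy)
      · by_cases hye : y = e
        · subst hye; exact hecl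
        · apply sub_cl hE
          refine Or.inr ?_
          simp only [hI', Finset.coe_insert, Set.mem_insert_iff, Finset.coe_erase, Set.mem_sdiff,
            Finset.mem_coe, Set.mem_singleton_iff]
          exact Or.inr ⟨Finset.mem_coe.1 hy, hye⟩
    have hle := ih I' hcard' hIN' hind' hspan'
    have hwk := hw k e hlt
    have h3 : ∑ x ∈ I', w x ≤ ∑ x ∈ I, w x := by
      have h4 : ∑ x ∈ I', w x + w e ≤ ∑ x ∈ I, w x + w e := by
        rw [hsum]
        exact add_le_add_right hwk _
      exact le_of_add_le_add_right h4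
    exact le_trans hle h3

/-- Maximum-type bound: the kept set weighs at least any independent subset of `N` over `F`, when
the weights decrease along `κ`. -/
lemma sum_le_kept (hE : M.E = Set.univ) {F : Set E} {N : Finset E} {κ : E → α}
    (w : E → ℝ≥0) (hw : ∀ f e, κ f < κ e → w e ≤ w f) :
    ∀ (m : ℕ) (I : Finset E), (I \ kept M F N κ).card = m → I ⊆ N → IndepOver M F I →
      ∑ e ∈ I, w e ≤ ∑ e ∈ kept M F N κ, w e := by
  intro m
  induction m with
  | zero =>
    intro I hcard _ _
    have hIK : I ⊆ kept M F N κ := by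
      rw [Finset.card_eq_zero, Finset.sdiff_eq_empty_iff_subset] at hcard
      exact hcard
    exact Finset.sum_le_sum_of_subset hIK
  | succ m ih =>
    intro I hcard hIN hI
    obtain ⟨e, he⟩ : (I \ kept M F N κ).Nonempty := by
      rw [← Finset.card_pos]; omega
    have heI : e ∈ I := (Finset.mem_sdiff.1 he).1
    have hek : e ∉ kept M F N κ := (Finset.mem_sdiff.1 he).2
    have heN := hIN heI
    obtain ⟨k, hk, hlt, hkI, hkcl⟩ := exchange_step hE hI heI heN hek
    set I' := insert k (I.erase e) with hI'
    have hkI' : k ∉ I.erase e := fun h => hkI (Finset.mem_of_mem_erase h)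
    have hsum : ∑ x ∈ I', w x + w e = ∑ x ∈ I, w x + w k := by
      rw [hI', Finset.sum_insert hkI', ← Finset.add_sum_erase I w heI]
      ring
    have hcard' : (I' \ kept M F N κ).card = m := by
      have h1 : I' \ kept M F N κ = (I \ kept M F N κ).erase e := by
        ext x
        simp only [hI', Finset.mem_sdiff, Finset.mem_insert, Finset.mem_erase]
        constructor
        · rintro ⟨rfl | ⟨h1, h2⟩, h3⟩
          · exact absurd hk h3
          · exact ⟨h1, h2, h3⟩
        · rintro ⟨h1, h2, h3⟩
          exact ⟨Or.inr ⟨h1, h2⟩, h3⟩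
      rw [h1, Finset.card_erase_of_mem he, hcard]
      rfl
    have hIN' : I' ⊆ N := by
      intro x hx
      rcases Finset.mem_insert.1 hx with rfl | h1
      · exact kept_subset hk
      · exact hIN (Finset.mem_of_mem_erase h1)
    have hind' : IndepOver M F I' :=
      (hI.mono (Finset.erase_subset _ _)).ins hE hkcl
    have hle := ih I' hcard' hIN' hind'
    have hwk := hw k e hlt
    have h3 : ∑ x ∈ I, w x ≤ ∑ x ∈ I', w x := by
      have h4 : ∑ x ∈ I, w x + w e ≤ ∑ x ∈ I', w x + w e := by
        rw [hsum]
        exact add_le_add_right hwk _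
      exact le_of_add_le_add_right h4
    exact le_trans h3 hle

end Kept

end Vale.Agent.Lib.P331
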