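import Vale.Agent.Lib.P331.Blocks

/-!
Counting over role vectors: the kept event for one element, and the telescoping over block classes.
-/

open scoped ENNReal NNReal

namespace Vale.Agent.Lib.P331

open Classical

set_option linter.unusedSectionVars false

variable {E : Type} [Fintype E]

/-- Role vectors with `e` in the arrival role and `es` in the full-sample role. -/
noncomputable def Om (e es : E) : Finset (E → Fin 3) :=
  Finset.univ.filter (fun ρ => ρ e = 2 ∧ ρ es = 0)

/-- Number of role vectors in `Om` whose sample at depth `n` does not span `e`. -/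
noncomputable def Hf (M : Matroid E) (W : ℝ≥0) (u : E → ℝ≥0) (e es : E) (n : ℕ) : ℕ :=
  ((Om e es).filter (fun ρ => e ∉ M.closure (Yset ρ ∩ lvlSet W u n))).card

lemma Hf_le_Om (M : Matroid E) (W : ℝ≥0) (u : E → ℝ≥0) (e es : E) (n : ℕ) :
    Hf M W u e es n ≤ (Om e es).card :=
  Finset.card_filter_le _ _

lemma Hf_anti (M : Matroid E) (W : ℝ≥0) (u : E → ℝ≥0) (e es : E) {m n : ℕ} (h : m ≤ n) :
    Hf M W u e es n ≤ Hf M W u e es m := by
  apply Finset.card_le_card
  intro ρ hρ
  obtain ⟨h1, h2⟩ := Finset.mem_filter.1 hρ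
  refine Finset.mem_filter.2 ⟨h1, fun h3 => h2 ?_⟩
  refine cl_mono ?_ h3
  exact Set.inter_subset_inter_right _ (lvlSet_mono h)

/-- Exchange the full-sample role and the arrival role. -/
def swap13 : Fin 3 → Fin 3 := ![2, 1, 0]

lemma swap13_swap13 : ∀ a : Fin 3, swap13 (swap13 a) = a := by decide

lemma swap13_eq_one : ∀ a : Fin 3, swap13 a = 1 → a = 1 := by decide

lemma swap13_eq_two : ∀ a : Fin 3, swap13 a = 2 → a = 0 := by decide

/-- Swap roles on the set `Sw`. -/
noncomputable def phi (Sw : Set E) (ρ : E → Fin 3) : E → Fin 3 :=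
  fun f => if f ∈ Sw then swap13 (ρ f) else ρ f

lemma phi_phi (Sw : Set E) (ρ : E → Fin 3) : phi Sw (phi Sw ρ) = ρ := by
  funext f
  by_cases h : f ∈ Sw
  · simp [phi, h, swap13_swap13]
  · simp [phi, h]

section KeyLemma

variable {M : Matroid E} {W : ℝ≥0} {u : E → ℝ≥0} {L θ Λ t : ℕ} {e es : E}

/-- Elements of a candidate set have levels in their block. -/
lemma div_mod_facts {s L t : ℕ} (_hL : 0 < L) (ht : s / (3 * L) = t) :
    3 * L * t ≤ s ∧ s = 3 * L * t + s % (3 * L) := by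
  have h1 := Nat.div_add_mod s (3 * L)
  rw [ht] at h1
  exact ⟨by omega, h1.symm⟩

/-- The generator set of the kept event. -/
def XX (M : Matroid E) (W : ℝ≥0) (u : E → ℝ≥0) (ρ : E → Fin 3) (L θ Λ t : ℕ) (e : E) : Set E :=
  DD W u ρ L θ t ∪ {f | f ∈ NN M W u ρ L θ Λ ∧ tauOf W (u f) L θ = t ∧ keyL W u f < keyL W u e}

/-- When `e` sits in the last level of its block, the generators lie among heavier elements. -/
lemma XX_sub_heavy (hL : 0 < L) (hi : lev W (u e) + θ = 3 * L * t + L - 1) (ρ : E → Fin 3) :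
    XX M W u ρ L θ Λ t e ⊆ {f | keyH u f < keyH u e} := by
  have hLev : ∀ f, f ∈ Cs W u θ (3 * L * t + L - 1) → keyH u f < keyH u e := by
    intro f hf
    obtain ⟨n, hn⟩ := has_lev_of_mem_Cs hf
    have h1 := (mem_Cs_iff (θ := θ) hn).1 hf
    have h2 : lev W (u f) < lev W (u e) := by omega
    exact keyH_lt_iff.2 (Or.inl (lt_of_lev_lt hn h2))
  rintro f (hf | hf)
  · rcases hf with ⟨_, hf2⟩ | ⟨_, hf2⟩
    · apply hLev f
      refine Cs_mono ?_ hf2
      omega
    · exact hLev f hf2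
  · obtain ⟨hf1, hf2, hf3⟩ : f ∈ NN M W u ρ L θ Λ ∧ tauOf W (u f) L θ = t ∧ keyL W u f < keyL W u e := hf
    have hc : Cand M W u ρ L θ Λ f (u f) := (Finset.mem_filter.1 hf1).2
    obtain ⟨_, _, hpos, _⟩ := hc
    have h3L : 0 < 3 * L := by omega
    obtain ⟨_, h5⟩ := div_mod_facts (s := lev W (u f) + θ) hL hf2
    have h6 : lev W (u f) ≤ lev W (u e) := by omega
    rcases keyL_lt_iff.1 hf3 with h7 | ⟨_, h7⟩
    · omega
    · exact h7

/-- When `e` is not in the last level of its block, a role swap places the generators inside the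
sample at the depth of the block end. -/
lemma XX_sub_swap (hL : 0 < L) (hi : lev W (u e) + θ = 3 * L * t + ((lev W (u e) + θ) % (3 * L)))
    (hp : (lev W (u e) + θ) % (3 * L) < L)
    {ρ' : E → Fin 3} (hρ' : ρ' ∈ Om e es) (hne : es ≠ e) :
    let Sw : Set E := {f | f ≠ e ∧ f ≠ es ∧ (∃ n, W ≤ u f * 2 ^ n) ∧
      tauOf W (u f) L θ = t ∧ (lev W (u f) + θ) % (3 * L) < L}
    XX M W u (phi Sw ρ') L θ Λ t e ⊆
      Yset ρ' ∩ lvlSet W u (lev W (u e) + (L - 1 - (lev W (u e) + θ) % (3 * L))) := by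
  intro Sw
  have hρ2 := (Finset.mem_filter.1 hρ').2
  have hx : θ < 3 * L * t + L := by omega
  have hCs : Cs W u θ (3 * L * t + L) =
      lvlSet W u (lev W (u e) + (L - 1 - (lev W (u e) + θ) % (3 * L))) := by
    rw [Cs_eq_lvl hx]
    congr 1
    omega
  rw [← hCs]
  have hesSw : es ∉ Sw := fun h => h.2.1 rfl
  have hnoSw : ∀ f, f ∈ Cs W u θ (3 * L * t) → f ∉ Sw := by
    intro f hf hS
    obtain ⟨n, hn⟩ := has_lev_of_mem_Cs hf
    have h1 := (mem_Cs_iff (θ := θ) hn).1 hf
    obtain ⟨h2, _⟩ := div_mod_facts (s := lev W (u f) + θ) hL hS.2.2.2.1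
    omega
  rintro f (hf | hf)
  · rcases hf with ⟨hf1, hf2⟩ | ⟨hf1, hf2⟩
    · refine ⟨?_, Cs_mono (by omega) hf2⟩
      have h0 := hnoSw f hf2
      have h1 : phi Sw ρ' f = ρ' f := by simp [phi, h0]
      have h2 : phi Sw ρ' f ≠ 2 := hf1
      rw [h1] at h2
      exact h2
    · refine ⟨?_, Cs_mono (by omega) hf2⟩
      have h2 : phi Sw ρ' f = 1 := hf1
      apply R2_sub_Y
      show ρ' f = 1
      by_cases h0 : f ∈ Sw
      · simp only [phi, if_pos h0] at h2
        exact swap13_eq_one _ h2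
      · simpa only [phi, if_neg h0] using h2
  · obtain ⟨hf1, hf2, hf3⟩ : f ∈ NN M W u (phi Sw ρ') L θ Λ ∧ tauOf W (u f) L θ = t ∧ keyL W u f < keyL W u e := hf
    have hc : Cand M W u (phi Sw ρ') L θ Λ f (u f) := (Finset.mem_filter.1 hf1).2
    obtain ⟨hf2', ⟨n, _, hn⟩, hpos, _⟩ := hc
    have hne1 : f ≠ e := by
      rintro rfl
      exact lt_irrefl _ hf3
    have hne2 : f ≠ es := by
      rintro rfl
      have h1 : phi Sw ρ' f = ρ' f := by simp [phi, hesSw]
      rw [h1, hρ2.2] at hf2'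
      exact absurd hf2' (by decide)
    have hS : f ∈ Sw := ⟨hne1, hne2, ⟨n, hn⟩, hf2, hpos⟩
    constructor
    · have h3 : swap13 (ρ' f) = 2 := by
        simpa only [phi, if_pos hS] using hf2'
      have h4 := swap13_eq_two _ h3
      show ρ' f ≠ 2
      rw [h4]
      decide
    · refine (mem_Cs_iff hn).2 ?_
      obtain ⟨_, h5⟩ := div_mod_facts (s := lev W (u f) + θ) hL hf2
      omega

/-- Main count for one element and one offset. -/
theorem count_kept (hne : es ≠ e)
    (hG : e ∉ M.closure {f | keyH u f < keyH u e})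
    {n : ℕ} (hn : n ≤ Λ) (hnW : W ≤ u e * 2 ^ n) (hL : 0 < L)
    (hp : (lev W (u e) + θ) % (3 * L) < L) :
    (if L - 1 - (lev W (u e) + θ) % (3 * L) = 0 then (Om e es).card
      else Hf M W u e es (lev W (u e) + (L - 1 - (lev W (u e) + θ) % (3 * L))))
    ≤ ((Om e es).filter (fun ρ => KeptEvt M W u ρ L θ Λ e)).card +
      (if θ + Λ < 3 * L * (tauOf W (u e) L θ + 1) then 0
        else Hf M W u e es (lev W (u e) + 2 * L + (L - 1 - (lev W (u e) + θ) % (3 * L)))) := by
  set i := lev W (u e) with hi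
  set p := (i + θ) % (3 * L) with hpdef
  set t := tauOf W (u e) L θ with ht
  have hdiv : 3 * L * t + p = i + θ := by
    have := Nat.div_add_mod (i + θ) (3 * L)
    simpa [ht, tauOf, hi, hpdef] using this
  -- good and bad sets
  set AE := (Om e es).filter (fun ρ => e ∉ M.closure (XX M W u ρ L θ Λ t e)) with hAE
  set Bad := (Om e es).filter (fun ρ =>
    ¬ (e ∈ M.closure (Yset ρ ∩ Cs W u θ (3 * L * (t + 1))) ∨ θ + Λ < 3 * L * (t + 1))) with hBad
  have h1 : AE.card ≤ ((Om e es).filter (fun ρ => KeptEvt M W u ρ L θ Λ e)).card + Bad.card := by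
    refine le_trans (Finset.card_le_card ?_) (Finset.card_union_le _ _)
    intro ρ hρ
    obtain ⟨hρ1, hρ2⟩ := Finset.mem_filter.1 hρ
    by_cases hB : (e ∈ M.closure (Yset ρ ∩ Cs W u θ (3 * L * (t + 1))) ∨ θ + Λ < 3 * L * (t + 1))
    · refine Finset.mem_union_left _ (Finset.mem_filter.2 ⟨hρ1, ?_⟩)
      refine ⟨?_, hρ2⟩
      refine Finset.mem_filter.2 ⟨Finset.mem_univ _, ?_⟩
      exact ⟨(Finset.mem_filter.1 hρ1).2.1, ⟨n, hn, hnW⟩, hp, hB⟩
    · exact Finset.mem_union_right _ (Finset.mem_filter.2 ⟨hρ1, hB⟩)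
  have h2 : Bad.card ≤ (if θ + Λ < 3 * L * (t + 1) then 0
      else Hf M W u e es (i + 2 * L + (L - 1 - p))) := by
    split_ifs with hdrop
    · rw [Nat.le_zero, Finset.card_eq_zero, Finset.filter_eq_empty_iff]
      intro ρ _ h3
      exact h3 (Or.inr hdrop)
    · apply Finset.card_le_card
      intro ρ hρ
      obtain ⟨hρ1, hρ2⟩ := Finset.mem_filter.1 hρ
      refine Finset.mem_filter.2 ⟨hρ1, ?_⟩
      intro h4
      apply hρ2
      left
      refine cl_mono ?_ h4
      have h3L : 3 * L * (t + 1) = 3 * L * t + 3 * L := by ring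
      have hx : θ < 3 * L * (t + 1) := by omega
      rw [Cs_eq_lvl hx]
      refine Set.inter_subset_inter_right _ (lvlSet_mono (le_of_eq ?_))
      omega
  have h3 : (if L - 1 - p = 0 then (Om e es).card else Hf M W u e es (i + (L - 1 - p))) ≤ AE.card := by
    split_ifs with hd
    · apply Finset.card_le_card
      intro ρ hρ
      refine Finset.mem_filter.2 ⟨hρ, fun h => hG (cl_mono ?_ h)⟩
      apply XX_sub_heavy hL
      omega
    · set Sw : Set E := {f | f ≠ e ∧ f ≠ es ∧ (∃ n, W ≤ u f * 2 ^ n) ∧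
        tauOf W (u f) L θ = t ∧ (lev W (u f) + θ) % (3 * L) < L} with hSw
      refine Finset.card_le_card_of_injOn (phi Sw) ?_ ?_
      · intro ρ' hρ'
        have hρ'' := Finset.mem_coe.1 hρ'
        obtain ⟨h5, h6⟩ := Finset.mem_filter.1 hρ''
        have h7 := Finset.mem_filter.1 h5
        have hes : es ∉ Sw := fun h => h.2.1 rfl
        have hee : e ∉ Sw := fun h => h.1 rfl
        have hmem : phi Sw ρ' ∈ Om e es := by
          refine Finset.mem_filter.2 ⟨Finset.mem_univ _, ?_, ?_⟩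
          · simp only [phi, if_neg hee]; exact h7.2.1
          · simp only [phi, if_neg hes]; exact h7.2.2
        refine Finset.mem_coe.2 (Finset.mem_filter.2 ⟨hmem, ?_⟩)
        intro h8
        apply h6
        refine cl_mono ?_ h8
        exact XX_sub_swap (t := t) (Λ := Λ) hL hdiv.symm hp h5 hne
      · intro a _ b _ hab
        have := congrArg (phi Sw) hab
        rwa [phi_phi, phi_phi] at this
  omega

end KeyLemma

end Vale.Agent.Lib.P331
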