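import Mathlib

/-!
Statement-level definitions for the single-sample matroid prophet inequality (P331).
-/

open MeasureTheory
open scoped ENNReal NNReal

namespace Vale.Agent.Lib.P331

/-- `opt M v` is the maximum of the total value `∑ e ∈ I, v e` over independent finite sets `I`
of the matroid `M`, as an extended nonnegative real. -/
noncomputable def opt {E : Type} (M : Matroid E) (v : E → ℝ≥0) : ℝ≥0∞ :=
  ⨆ (I : Finset E) (_ : M.Indep (I : Set E)), ∑ e ∈ I, (v e : ℝ≥0∞)

open Classical in
/-- One arrival of an online run: the rule `accept`, which knows the sample vector `S`, the set `A`
accepted so far, the arriving element `e` and its value `V e` (and nothing else), may accept `e`;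
`e` is added to `A` when the rule accepts it and `A` stays independent in `M`. -/
noncomputable def runStep {E : Type} (M : Matroid E)
    (accept : Finset E → E → ℝ≥0 → Prop) (V : E → ℝ≥0) (A : Finset E) (e : E) : Finset E :=
  if accept A e (V e) ∧ M.Indep ((insert e A : Finset E) : Set E) then insert e A else A

/-- The accepted set at the end of the online run along the arrival list `l`, starting from the
empty set. `accept S` is the rule after it has received the sample vector `S`. -/
noncomputable def run {E : Type} (M : Matroid E)
    (accept : (E → ℝ≥0) → Finset E → E → ℝ≥0 → Prop) (S V : E → ℝ≥0) (l : List E) : Finset E :=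
  l.foldl (runStep M (accept S) V) ∅

end Vale.Agent.Lib.P331
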