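import Vale.Agent.Lib.P331.Secretary

/-!
From the pointwise bound to the prophet inequality against the almighty adversary.
-/

open MeasureTheory
open scoped ENNReal NNReal

namespace Vale.Agent.Lib.P331

open Classical Finset

set_option linter.unusedSectionVars false

variable {E : Type} [Fintype E]

/-! ### Role mixing -/

/-- Combine samples (on sample-role elements) and values (on arrival-role elements). -/
noncomputable def mix (ρ : E → Fin 3) (S V : E → ℝ≥0) : E → ℝ≥0 :=
  fun f => if ρ f = 2 then V f else S f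

lemma measurable_mix (ρ : E → Fin 3) :
    Measurable (fun p : (E → ℝ≥0) × (E → ℝ≥0) => mix ρ p.1 p.2) := by
  refine measurable_pi_iff.2 fun f => ?_
  by_cases h : ρ f = 2
  · simp only [mix, if_pos h]
    exact (measurable_pi_apply f).comp measurable_snd
  · simp only [mix, if_neg h]
    exact (measurable_pi_apply f).comp measurable_fst

lemma map_mix (D : E → Measure ℝ≥0) [∀ e, IsProbabilityMeasure (D e)] (ρ : E → Fin 3) :
    ((Measure.pi D).prod (Measure.pi D)).map (fun p => mix ρ p.1 p.2) = Measure.pi D := by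
  symm
  apply Measure.pi_eq
  intro s hs
  rw [Measure.map_apply (measurable_mix ρ) (MeasurableSet.univ_pi hs)]
  have h1 : (fun p : (E → ℝ≥0) × (E → ℝ≥0) => mix ρ p.1 p.2) ⁻¹' (Set.pi Set.univ s) =
      (Set.pi Set.univ (fun e => if ρ e = 2 then Set.univ else s e)) ×ˢ
        (Set.pi Set.univ (fun e => if ρ e = 2 then s e else Set.univ)) := by
    ext p
    simp only [Set.mem_preimage, Set.mem_pi, Set.mem_univ, forall_true_left, Set.mem_prod, mix]
    constructor
    · intro h
      constructor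
      · intro e
        by_cases he : ρ e = 2
        · simp [he]
        · have := h e
          simpa [he] using this
      · intro e
        by_cases he : ρ e = 2
        · have := h e
          simpa [he] using this
        · simp [he]
    · rintro ⟨h1, h2⟩ e
      by_cases he : ρ e = 2
      · have := h2 e
        simpa [he] using this
      · have := h1 e
        simpa [he] using this
  rw [h1, Measure.prod_prod, Measure.pi_pi, Measure.pi_pi, ← Finset.prod_mul_distrib]
  apply Finset.prod_congr rfl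
  intro e _
  by_cases he : ρ e = 2
  · simp [he]
  · simp [he]

/-! ### The rule reads samples only on sample-role elements -/

section Congr

variable {M : Matroid E} {ρ : E → Fin 3} {S u : E → ℝ≥0}

lemma anchor_congr (h : ∀ f, ρ f ≠ 2 → S f = u f) : anchor M ρ S = anchor M ρ u := by
  unfold anchor
  apply Finset.sup_congr rfl
  intro f hf
  exact h f (mem_filter.1 hf).2.1

lemma Y_Cs_congr (h : ∀ f, ρ f ≠ 2 → S f = u f) (W : ℝ≥0) (θ y : ℕ) :
    Yset ρ ∩ Cs W S θ y = Yset ρ ∩ Cs W u θ y := by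
  ext f
  constructor
  · rintro ⟨hf, n, hn, hw⟩
    refine ⟨hf, n, hn, ?_⟩
    rw [← h f hf]
    exact hw
  · rintro ⟨hf, n, hn, hw⟩
    refine ⟨hf, n, hn, ?_⟩
    rw [h f hf]
    exact hw

lemma R2_Cs_congr (h : ∀ f, ρ f ≠ 2 → S f = u f) (W : ℝ≥0) (θ y : ℕ) :
    R2set ρ ∩ Cs W S θ y = R2set ρ ∩ Cs W u θ y := by
  ext f
  constructor
  · rintro ⟨hf, n, hn, hw⟩
    refine ⟨hf, n, hn, ?_⟩
    rw [← h f (R2_sub_Y ρ hf)]
    exact hw
  · rintro ⟨hf, n, hn, hw⟩
    refine ⟨hf, n, hn, ?_⟩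
    rw [h f (R2_sub_Y ρ hf)]
    exact hw

lemma DD_congr (h : ∀ f, ρ f ≠ 2 → S f = u f) (W : ℝ≥0) (L θ t : ℕ) :
    DD W S ρ L θ t = DD W u ρ L θ t := by
  unfold DD
  rw [Y_Cs_congr h, R2_Cs_congr h]

lemma block_congr (h : ∀ f, ρ f ≠ 2 → S f = u f) (W : ℝ≥0) (L θ Λ : ℕ) (A : Finset E) (e : E) (x : ℝ≥0) :
    blockAccept M W S ρ L θ Λ A e x ↔ blockAccept M W u ρ L θ Λ A e x := by
  simp only [blockAccept, Cand, DD_congr h, Y_Cs_congr h]

lemma top_congr (h : ∀ f, ρ f ≠ 2 → S f = u f) (A : Finset E) (e : E) (x : ℝ≥0) :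
    topAccept M ρ S A e x ↔ topAccept M ρ u A e x := by
  unfold topAccept
  constructor
  · rintro ⟨h1, h2, h3⟩
    refine ⟨h1, h2, fun f hf hf' => ?_⟩
    rw [← h f hf]
    exact h3 f hf hf'
  · rintro ⟨h1, h2, h3⟩
    refine ⟨h1, h2, fun f hf hf' => ?_⟩
    rw [h f hf]
    exact h3 f hf hf'

lemma rule_congr (h : ∀ f, ρ f ≠ 2 → S f = u f) (U Λ m θ : ℕ) (A : Finset E) (e : E) (x : ℝ≥0) :
    ruleN M U Λ m θ ρ S A e x ↔ ruleN M U Λ m θ ρ u A e x := by
  unfold ruleN
  rw [anchor_congr h, block_congr h, top_congr h]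

lemma rule_role {U Λ m θ : ℕ} {A : Finset E} {e : E} {x : ℝ≥0}
    (h : ruleN M U Λ m θ ρ S A e x) : ρ e = 2 := by
  rcases h with ⟨_, h⟩ | ⟨_, h⟩
  · exact h.1.1
  · exact h.1

lemma rule_mix (U Λ m θ : ℕ) (S V : E → ℝ≥0) (A : Finset E) (e : E) :
    ruleN M U Λ m θ ρ S A e (V e) ↔ ruleN M U Λ m θ ρ (mix ρ S V) A e (mix ρ S V e) := by
  have h : ∀ f, ρ f ≠ 2 → S f = mix ρ S V f := by
    intro f hf
    simp [mix, hf]
  by_cases he : ρ e = 2
  · have h2 : mix ρ S V e = V e := by simp [mix, he]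
    rw [h2]
    exact rule_congr h U Λ m θ A e (V e)
  · constructor
    · intro h1
      exact absurd (rule_role h1) he
    · intro h1
      exact absurd (rule_role h1) he

lemma step_mix (U Λ m θ : ℕ) (S V : E → ℝ≥0) :
    runStep M (ruleN M U Λ m θ ρ S) V = runStep M (ruleN M U Λ m θ ρ (mix ρ S V)) (mix ρ S V) := by
  funext A e
  unfold runStep
  simp only [rule_mix U Λ m θ S V A e]

lemma mem_foldl_role (U Λ m θ : ℕ) (u V : E → ℝ≥0) (l : List E) :
    ∀ A : Finset E, (∀ e ∈ A, ρ e = 2) →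
      ∀ e ∈ l.foldl (runStep M (ruleN M U Λ m θ ρ u) V) A, ρ e = 2 := by
  induction l with
  | nil => intro A h; exact h
  | cons a l ih =>
    intro A h
    simp only [List.foldl_cons]
    apply ih
    intro e he
    unfold runStep at he
    split_ifs at he with h1
    · rcases mem_insert.1 he with rfl | h2
      · exact rule_role h1.1
      · exact h e h2
    · exact h e he

/-- The gain of a run equals the gain at the mixed weights. -/
lemma gain_mix (U Λ m θ : ℕ) (S V : E → ℝ≥0) (l : List E) :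
    ∑ e ∈ run M (ruleN M U Λ m θ ρ) S V l, (V e : ℝ≥0∞) =
      ((gainN M U Λ m θ ρ (mix ρ S V) l : ℝ≥0) : ℝ≥0∞) := by
  unfold run gainN
  rw [step_mix]
  rw [ENNReal.ofNNReal_finsetSum]
  apply sum_congr rfl
  intro e he
  have h1 := mem_foldl_role U Λ m θ (mix ρ S V) (mix ρ S V) l ∅ (by simp) e he
  simp [mix, h1]

end Congr

/-! ### Measurability -/

section Meas

variable {X : Type*} [MeasurableSpace X]

lemma meas_pred_set (Γ : X → Set E) (h : ∀ f, Measurable (fun x => f ∈ Γ x)) (P : Set E → Prop) :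
    Measurable (fun x => P (Γ x)) := by
  have hg : Measurable (fun x => (fun f => f ∈ Γ x)) := measurable_pi_iff.2 h
  have hP : Measurable (fun q : E → Prop => P {f | q f}) := Measurable.of_discrete
  exact hP.comp hg

variable {S : X → E → ℝ≥0} {W x : X → ℝ≥0}

lemma meas_anchor (hS : ∀ f, Measurable (fun p => S p f)) (M : Matroid E) (ρ : E → Fin 3) :
    Measurable (fun p => anchor M ρ (S p)) := by
  unfold anchor
  have : ∀ s : Finset E, Measurable (fun p => s.sup (S p)) := by
    intro s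
    induction s using Finset.induction_on with
    | empty =>
      simp only [sup_empty]
      exact measurable_const
    | insert a s _ ih =>
      simp only [sup_insert]
      exact (hS a).sup ih
  exact this _

lemma meas_Cs (hS : ∀ f, Measurable (fun p => S p f)) (hW : Measurable W) (θ y : ℕ) (f : E) :
    Measurable (fun p => f ∈ Cs (W p) (S p) θ y) := by
  show Measurable (fun p => ∃ n, n + θ < y ∧ W p ≤ S p f * 2 ^ n)
  refine Measurable.exists fun n => Measurable.and measurable_const ?_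
  exact (measurableSet_le hW ((hS f).mul_const _)).mem

lemma lev_eq_succ_iff {A y : ℝ≥0} {n : ℕ} :
    lev A y = n + 1 ↔ A ≤ y * 2 ^ (n + 1) ∧ ¬ A ≤ y * 2 ^ n := by
  constructor
  · intro h
    have hne : {k : ℕ | A ≤ y * 2 ^ k}.Nonempty := by
      by_contra hc
      have h0 : {k : ℕ | A ≤ y * 2 ^ k} = ∅ := Set.not_nonempty_iff_eq_empty.1 hc
      have : lev A y = 0 := by
        unfold lev
        rw [h0]
        simp
      omega
    obtain ⟨k, hk⟩ := hne
    refine ⟨?_, ?_⟩
    · rw [← h]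
      exact lev_spec hk
    · exact not_le_of_lt_lev (by omega)
  · rintro ⟨h1, h2⟩
    have h3 := lev_le h1
    have h4 : ¬ lev A y ≤ n := by
      intro h5
      exact h2 (le_mul_pow_mono (lev_spec h1) h5)
    omega

lemma lev_eq_zero_iff {A y : ℝ≥0} :
    lev A y = 0 ↔ A ≤ y * 2 ^ 0 ∨ ∀ k : ℕ, ¬ A ≤ y * 2 ^ k := by
  unfold lev
  rw [Nat.sInf_eq_zero]
  constructor
  · rintro (h | h)
    · exact Or.inl h
    · right
      intro k hk
      have : k ∈ {n : ℕ | A ≤ y * 2 ^ n} := hk
      rw [h] at this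
      exact this
  · rintro (h | h)
    · exact Or.inl h
    · right
      ext k
      constructor
      · intro hk
        exact h k hk
      · intro hk
        exact absurd hk (Set.notMem_empty _)

lemma meas_lev (hW : Measurable W) (hx : Measurable x) (n : ℕ) :
    Measurable (fun p => lev (W p) (x p) = n) := by
  have hle : ∀ k : ℕ, Measurable (fun p => W p ≤ x p * 2 ^ k) := fun k =>
    (measurableSet_le hW (hx.mul_const _)).mem
  cases n with
  | zero =>
    simp only [lev_eq_zero_iff]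
    exact (hle 0).or (Measurable.forall fun k => (hle k).not)
  | succ n =>
    simp only [lev_eq_succ_iff]
    exact (hle (n + 1)).and (hle n).not

lemma meas_block (hS : ∀ f, Measurable (fun p => S p f)) (hW : Measurable W) (hx : Measurable x)
    (M : Matroid E) (ρ : E → Fin 3) (L θ Λ : ℕ) (A : Finset E) (e : E) :
    Measurable (fun p => blockAccept M (W p) (S p) ρ L θ Λ A e (x p)) := by
  set Q : ℕ → X → Prop := fun n p =>
    (ρ e = 2 ∧ (∃ k, k ≤ Λ ∧ W p ≤ x p * 2 ^ k) ∧ (n + θ) % (3 * L) < L ∧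
      (e ∈ M.closure (Yset ρ ∩ Cs (W p) (S p) θ (3 * L * ((n + θ) / (3 * L) + 1))) ∨
        θ + Λ < 3 * L * ((n + θ) / (3 * L) + 1))) ∧
    e ∉ M.closure (DD (W p) (S p) ρ L θ ((n + θ) / (3 * L)) ∪ (A : Set E)) with hQ
  have hQm : ∀ n, Measurable (Q n) := by
    intro n
    have hk : Measurable (fun p => ∃ k, k ≤ Λ ∧ W p ≤ x p * 2 ^ k) :=
      Measurable.exists fun k => Measurable.and measurable_const
        (measurableSet_le hW (hx.mul_const _)).mem
    have hΓ1 : ∀ y, Measurable (fun p => e ∈ M.closure (Yset ρ ∩ Cs (W p) (S p) θ y)) := by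
      intro y
      refine meas_pred_set (fun p => Yset ρ ∩ Cs (W p) (S p) θ y) ?_ (fun B => e ∈ M.closure B)
      intro f
      exact Measurable.and measurable_const (meas_Cs hS hW θ y f)
    have hΓ2 : ∀ t, Measurable (fun p => e ∈ M.closure (DD (W p) (S p) ρ L θ t ∪ (A : Set E))) := by
      intro t
      refine meas_pred_set (fun p => DD (W p) (S p) ρ L θ t ∪ (A : Set E)) ?_ (fun B => e ∈ M.closure B)
      intro f
      refine Measurable.or (Measurable.or ?_ ?_) measurable_const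
      · exact Measurable.and measurable_const (meas_Cs hS hW θ _ f)
      · exact Measurable.and measurable_const (meas_Cs hS hW θ _ f)
    exact Measurable.and (Measurable.and measurable_const (hk.and (Measurable.and measurable_const
      (Measurable.or (hΓ1 _) measurable_const)))) (hΓ2 _).not
  have h1 : (fun p => blockAccept M (W p) (S p) ρ L θ Λ A e (x p)) =
      fun p => ∃ n, lev (W p) (x p) = n ∧ Q n p := by
    funext p
    apply propext
    constructor
    · intro h
      exact ⟨_, rfl, h⟩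
    · rintro ⟨n, rfl, h⟩
      exact h
  rw [h1]
  exact Measurable.exists fun n => (meas_lev hW hx n).and (hQm n)

lemma meas_top (hS : ∀ f, Measurable (fun p => S p f)) (hx : Measurable x)
    (M : Matroid E) (ρ : E → Fin 3) (A : Finset E) (e : E) :
    Measurable (fun p => topAccept M ρ (S p) A e (x p)) := by
  show Measurable fun p => ρ e = 2 ∧ A = ∅ ∧
    ∀ f, ρ f ≠ 2 → f ∉ M.closure ∅ → S p f < x p ∨ (S p f = x p ∧ idx e < idx f)
  refine Measurable.and measurable_const (Measurable.and measurable_const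
    (Measurable.forall fun f => Measurable.imp measurable_const (Measurable.imp measurable_const ?_)))
  refine Measurable.or (measurableSet_lt (hS f) hx).mem (Measurable.and ?_ measurable_const)
  exact (measurableSet_eq_fun (hS f) hx).mem

lemma meas_rule (hS : ∀ f, Measurable (fun p => S p f)) (hx : Measurable x)
    (M : Matroid E) (U Λ m θ : ℕ) (ρ : E → Fin 3) (A : Finset E) (e : E) :
    Measurable (fun p => ruleN M U Λ m θ ρ (S p) A e (x p)) := by
  unfold ruleN
  exact Measurable.or (Measurable.and measurable_const (meas_block hS (meas_anchor hS M ρ) hx M ρ _ θ Λ A e))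
    (Measurable.and measurable_const (meas_top hS hx M ρ A e))

/-- Measurable fibres for `Finset`-valued maps. -/
def FinMeas (F : X → Finset E) : Prop := ∀ B, Measurable (fun x => F x = B)

lemma finMeas_step (M : Matroid E) (R : X → Finset E → E → ℝ≥0 → Prop) (V : X → E → ℝ≥0) (e : E)
    (hR : ∀ A, Measurable (fun x => R x A e (V x e))) {F : X → Finset E} (hF : FinMeas F) :
    FinMeas (fun x => runStep M (R x) (V x) (F x) e) := by
  intro B
  have h : (fun x => runStep M (R x) (V x) (F x) e = B) = fun x => ∃ A, F x = A ∧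
      (((R x A e (V x e) ∧ M.Indep ((insert e A : Finset E) : Set E)) ∧ insert e A = B) ∨
        (¬ (R x A e (V x e) ∧ M.Indep ((insert e A : Finset E) : Set E)) ∧ A = B)) := by
    funext x
    apply propext
    constructor
    · intro h
      refine ⟨F x, rfl, ?_⟩
      unfold runStep at h
      split_ifs at h with h1
      · exact Or.inl ⟨h1, h⟩
      · exact Or.inr ⟨h1, h⟩
    · rintro ⟨A, rfl, h | h⟩
      · unfold runStep
        rw [if_pos h.1]
        exact h.2
      · unfold runStep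
        rw [if_neg h.1]
        exact h.2
  rw [h]
  refine Measurable.exists fun A => (hF A).and (Measurable.or ?_ ?_)
  · exact Measurable.and (Measurable.and (hR A) measurable_const) measurable_const
  · exact Measurable.and (Measurable.and (hR A) measurable_const).not measurable_const

lemma finMeas_foldl (M : Matroid E) (R : X → Finset E → E → ℝ≥0 → Prop) (V : X → E → ℝ≥0)
    (hR : ∀ A e, Measurable (fun x => R x A e (V x e))) (l : List E) :
    ∀ {F : X → Finset E}, FinMeas F →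
      FinMeas (fun x => l.foldl (runStep M (R x) (V x)) (F x)) := by
  induction l with
  | nil =>
    intro F hF
    exact hF
  | cons a l ih =>
    intro F hF
    simp only [List.foldl_cons]
    exact ih (finMeas_step M R V a (fun A => hR A a) hF)

lemma meas_sum_of_fin {F : (E → ℝ≥0) → Finset E} (hF : FinMeas F) :
    Measurable (fun u => ∑ e ∈ F u, u e) := by
  have h1 : (fun u : E → ℝ≥0 => ∑ e ∈ F u, u e) = fun u => ∑ e : E, (if e ∈ F u then u e else 0) := by
    funext u
    rw [sum_ite_mem, univ_inter]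
  rw [h1]
  refine Finset.measurable_sum _ fun e _ => Measurable.ite ?_ (measurable_pi_apply e) measurable_const
  apply Measurable.setOf
  have h2 : (fun u => e ∈ F u) = fun u => ∃ B : Finset E, F u = B ∧ e ∈ B := by
    funext u
    apply propext
    constructor
    · intro h
      exact ⟨_, rfl, h⟩
    · rintro ⟨B, rfl, h⟩
      exact h
  rw [h2]
  exact Measurable.exists fun B => (hF B).and measurable_const

end Meas

lemma meas_gain (M : Matroid E) (U Λ m θ : ℕ) (ρ : E → Fin 3) (l : List E) :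
    Measurable (fun u => gainN M U Λ m θ ρ u l) := by
  unfold gainN
  apply meas_sum_of_fin
  apply finMeas_foldl M (fun u => ruleN M U Λ m θ ρ u) (fun u => u)
  · intro A e
    exact meas_rule (S := fun u => u) (x := fun u => u e) (fun f => measurable_pi_apply f)
      (measurable_pi_apply e) M U Λ m θ ρ A e
  · intro B
    exact measurable_const

/-! ### Seeds and the worst-case gain -/

/-- The seed type: mode, offset, role vector. -/
abbrev SeedT (U : ℕ) (E : Type) : Type := Fin (U + 2) × Fin (3 * 2 ^ U) × (E → Fin 3)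

/-- The worst gain of a seed over all arrival orders at the mixed weights `u`. -/
noncomputable def minGain (M : Matroid E) (U Λ : ℕ) (s : SeedT U E) (u : E → ℝ≥0) : ℝ≥0∞ :=
  ⨅ σ : Fin (Fintype.card E) ≃ E, ((gainN M U Λ s.1 s.2.1 s.2.2 u (List.ofFn σ) : ℝ≥0) : ℝ≥0∞)

lemma meas_minGain (M : Matroid E) (U Λ : ℕ) (s : SeedT U E) : Measurable (minGain M U Λ s) := by
  unfold minGain
  exact Measurable.iInf fun σ => measurable_coe_nnreal_ennreal.comp (meas_gain M U Λ _ _ _ _)

lemma card_SeedT (U : ℕ) :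
    Fintype.card (SeedT U E) = 3 * (U + 2) * (2 ^ U * 3 ^ Fintype.card E) := by
  simp only [SeedT, Fintype.card_prod, Fintype.card_fin, Fintype.card_fun]
  ring

/-- Pointwise bound at fixed weights. -/
theorem pointwise {M : Matroid E} {U Λ : ℕ} (hE : M.E = Set.univ) (hr : M.eRank.toNat ≤ 2 ^ Λ)
    (hU : Λ ≤ 2 ^ U) (u : E → ℝ≥0) :
    (Fintype.card (SeedT U E) : ℝ≥0∞) * opt M u ≤
      (54 * ((U : ℝ≥0∞) + 2)) * ∑ s : SeedT U E, minGain M U Λ s u := by
  obtain ⟨B, hB1, hB2⟩ := secretary_bound hE hr hU u (M := M)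
  have h1 : ∀ s : SeedT U E, ((B s.1 s.2.1 s.2.2 : ℝ≥0) : ℝ≥0∞) ≤ minGain M U Λ s u := by
    intro s
    unfold minGain
    refine le_iInf fun σ => ?_
    have hl : ∀ e, e ∈ List.ofFn σ := by
      intro e
      rw [List.mem_ofFn]
      exact ⟨σ.symm e, by simp⟩
    exact ENNReal.coe_le_coe.2 (hB1 s.1 s.2.1 s.2.2 (List.ofFn σ) s.1.2 hl)
  have h2 : ∑ s : SeedT U E, ((B s.1 s.2.1 s.2.2 : ℝ≥0) : ℝ≥0∞) =
      ((∑ m ∈ range (U + 2), ∑ θ ∈ range (3 * 2 ^ U), ∑ ρ : E → Fin 3, B m θ ρ : ℝ≥0) : ℝ≥0∞) := by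
    push_cast
    rw [Fintype.sum_prod_type]
    rw [← Fin.sum_univ_eq_sum_range
      (fun m => ∑ θ ∈ range (3 * 2 ^ U), ∑ ρ : E → Fin 3, ((B m θ ρ : ℝ≥0) : ℝ≥0∞)) (U + 2)]
    apply sum_congr rfl
    intro m _
    rw [Fintype.sum_prod_type]
    rw [← Fin.sum_univ_eq_sum_range
      (fun θ => ∑ ρ : E → Fin 3, ((B m θ ρ : ℝ≥0) : ℝ≥0∞)) (3 * 2 ^ U)]
  simp only [opt, ENNReal.mul_iSup]
  refine iSup₂_le fun I hI => ?_
  have h3 := hB2 I hI
  rw [card_SeedT]
  set Tot := ∑ m ∈ range (U + 2), ∑ θ ∈ range (3 * 2 ^ U), ∑ ρ : E → Fin 3, B m θ ρ with hTot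
  have h4 : ((3 * (U + 2) * (2 ^ U * 3 ^ Fintype.card E) : ℕ) : ℝ≥0) * ∑ e ∈ I, u e ≤
      (54 * ((U : ℝ≥0) + 2)) * Tot := by
    calc ((3 * (U + 2) * (2 ^ U * 3 ^ Fintype.card E) : ℕ) : ℝ≥0) * ∑ e ∈ I, u e
        = (3 * ((U : ℝ≥0) + 2)) * (((2 ^ U * 3 ^ Fintype.card E : ℕ) : ℝ≥0) * ∑ e ∈ I, u e) := by
          push_cast
          ring
      _ ≤ (3 * ((U : ℝ≥0) + 2)) * (18 * Tot) := by gcongr
      _ = _ := by ring
  calc ((3 * (U + 2) * (2 ^ U * 3 ^ Fintype.card E) : ℕ) : ℝ≥0∞) * ∑ e ∈ I, (u e : ℝ≥0∞)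
      = ((((3 * (U + 2) * (2 ^ U * 3 ^ Fintype.card E) : ℕ) : ℝ≥0) * ∑ e ∈ I, u e : ℝ≥0) : ℝ≥0∞) := by
        push_cast
        rfl
    _ ≤ (((54 * ((U : ℝ≥0) + 2)) * Tot : ℝ≥0) : ℝ≥0∞) := ENNReal.coe_le_coe.2 h4
    _ = (54 * ((U : ℝ≥0∞) + 2)) * ((Tot : ℝ≥0) : ℝ≥0∞) := by
        push_cast
        rfl
    _ ≤ _ := by
        rw [hTot, ← h2]
        gcongr with s _
        exact h1 s

/-- **Main theorem.** For every finite matroid there is a rule using one sample per element with
ratio at least `1 / (54 * (⌈log₂ ⌈log₂ r⌉⌉ + 2))` against the almighty adversary. -/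
theorem main {E : Type} [Fintype E] (M : Matroid E) (hE : M.E = Set.univ) :
    ∃ (Seed : Type) (_ : Fintype Seed) (_ : Nonempty Seed)
      (accept : Seed → (E → ℝ≥0) → Finset E → E → ℝ≥0 → Prop),
      (∀ ρ A e, MeasurableSet {p : (E → ℝ≥0) × ℝ≥0 | accept ρ p.1 A e p.2}) ∧
      ∀ (D : E → Measure ℝ≥0) [∀ e, IsProbabilityMeasure (D e)]
        (π : Seed → (E → ℝ≥0) → (E → ℝ≥0) → (Fin (Fintype.card E) ≃ E)),
        (1 / (54 * ((Nat.clog 2 (Nat.clog 2 M.eRank.toNat) : ℝ≥0∞) + 2))) *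
            ∫⁻ v, opt M v ∂(Measure.pi D)
          ≤ (Fintype.card Seed : ℝ≥0∞)⁻¹ * ∑ ρ, ∫⁻ p, ∑ e ∈ run M (accept ρ) p.1 p.2
              (List.ofFn (π ρ p.1 p.2)), (p.2 e : ℝ≥0∞) ∂((Measure.pi D).prod (Measure.pi D)) := by
  set Λ := Nat.clog 2 M.eRank.toNat with hΛ
  set U := Nat.clog 2 Λ with hUdef
  have hr : M.eRank.toNat ≤ 2 ^ Λ := Nat.le_pow_clog (by norm_num) _
  have hU : Λ ≤ 2 ^ U := Nat.le_pow_clog (by norm_num) _
  refine ⟨SeedT U E, inferInstance, inferInstance, fun s => ruleN M U Λ s.1 s.2.1 s.2.2, ?_, ?_⟩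
  · intro s A e
    apply Measurable.setOf
    exact meas_rule (S := fun p : (E → ℝ≥0) × ℝ≥0 => p.1) (x := fun p => p.2)
      (fun f => (measurable_pi_apply f).comp measurable_fst) measurable_snd M U Λ _ _ _ A e
  · intro D _ π
    set P := Measure.pi D with hP
    have hgain : ∀ s : SeedT U E, ∫⁻ u, minGain M U Λ s u ∂P ≤
        ∫⁻ p, ∑ e ∈ run M (ruleN M U Λ s.1 s.2.1 s.2.2) p.1 p.2 (List.ofFn (π s p.1 p.2)),
          (p.2 e : ℝ≥0∞) ∂(P.prod P) := by
      intro s
      calc ∫⁻ u, minGain M U Λ s u ∂P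
          = ∫⁻ u, minGain M U Λ s u ∂((P.prod P).map (fun p => mix s.2.2 p.1 p.2)) := by
            rw [hP, map_mix]
        _ = ∫⁻ p, minGain M U Λ s (mix s.2.2 p.1 p.2) ∂(P.prod P) :=
            lintegral_map (meas_minGain M U Λ s) (measurable_mix s.2.2)
        _ ≤ _ := by
            apply lintegral_mono
            intro p
            beta_reduce
            rw [gain_mix]
            exact iInf_le (fun σ : Fin (Fintype.card E) ≃ E =>
              ((gainN M U Λ s.1 s.2.1 s.2.2 (mix s.2.2 p.1 p.2) (List.ofFn σ) : ℝ≥0) : ℝ≥0∞)) _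
    set Y := ∑ s : SeedT U E, ∫⁻ p, ∑ e ∈ run M (ruleN M U Λ s.1 s.2.1 s.2.2) p.1 p.2
      (List.ofFn (π s p.1 p.2)), (p.2 e : ℝ≥0∞) ∂(P.prod P) with hY
    set C : ℝ≥0∞ := 54 * ((U : ℝ≥0∞) + 2) with hC
    set nS : ℝ≥0∞ := (Fintype.card (SeedT U E) : ℝ≥0∞) with hnS
    have hC0 : C ≠ 0 := by
      rw [hC]
      refine mul_ne_zero (by norm_num) ?_
      simp
    have hCt : C ≠ ⊤ := by
      rw [hC]
      refine ENNReal.mul_ne_top (by norm_num) ?_
      exact ENNReal.add_ne_top.2 ⟨ENNReal.natCast_ne_top _, by norm_num⟩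
    have hnS0 : nS ≠ 0 := by
      rw [hnS]
      exact_mod_cast (Fintype.card_pos (α := SeedT U E)).ne'
    have hnSt : nS ≠ ⊤ := ENNReal.natCast_ne_top _
    have hmain : nS * ∫⁻ v, opt M v ∂P ≤ C * Y := by
      calc nS * ∫⁻ v, opt M v ∂P = ∫⁻ v, nS * opt M v ∂P := (lintegral_const_mul' _ _ hnSt).symm
        _ ≤ ∫⁻ v, C * ∑ s : SeedT U E, minGain M U Λ s v ∂P :=
            lintegral_mono (fun v => pointwise hE hr hU v)
        _ = C * ∫⁻ v, ∑ s : SeedT U E, minGain M U Λ s v ∂P := lintegral_const_mul' _ _ hCt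
        _ = C * ∑ s : SeedT U E, ∫⁻ v, minGain M U Λ s v ∂P := by
            rw [lintegral_finsetSum _ (fun s _ => meas_minGain M U Λ s)]
        _ ≤ C * Y := mul_le_mul_right (sum_le_sum fun s _ => hgain s) _
    calc (1 / C) * ∫⁻ v, opt M v ∂P
        = nS⁻¹ * (C⁻¹ * (nS * ∫⁻ v, opt M v ∂P)) := by
          rw [one_div]
          rw [← mul_assoc, ← mul_assoc, mul_comm nS⁻¹ C⁻¹, mul_assoc C⁻¹, ENNReal.inv_mul_cancel hnS0 hnSt, mul_one]
      _ ≤ nS⁻¹ * (C⁻¹ * (C * Y)) := by gcongr
      _ = nS⁻¹ * Y := by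
          rw [← mul_assoc C⁻¹, ENNReal.inv_mul_cancel hC0 hCt, one_mul]

end Vale.Agent.Lib.P331
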