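import Vale.Agent.Lib.P331.Chain

/-!
The chain bound for online runs: the accepted set weighs at least the kept elements of each block.
-/

open scoped ENNReal NNReal

namespace Vale.Agent.Lib.P331

open Classical

variable {E : Type} {M : Matroid E}

section Run

variable (D : ℕ → Set E) (τ : E → ℕ) (N : Finset E)

/-- Invariant of the run. -/
def RunInv (M : Matroid E) (A : Finset E) : Prop :=
  A ⊆ N ∧ M.Indep (A : Set E) ∧ ∀ t, IndepOver M (D t) (A.filter (fun g => t ≤ τ g))

variable {D τ N}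

lemma runStep_spec (hE : M.E = Set.univ) (hD : ∀ s t, s ≤ t → D s ⊆ D t)
    (accept : Finset E → E → ℝ≥0 → Prop) (V : E → ℝ≥0)
    (hacc : ∀ A e, accept A e (V e) ↔ e ∈ N ∧ e ∉ M.closure (D (τ e) ∪ (A : Set E)))
    {A : Finset E} (hA : RunInv D τ N M A) (e : E) :
    RunInv D τ N M (runStep M accept V A e) ∧ A ⊆ runStep M accept V A e ∧
      (e ∈ N → e ∈ M.closure (D (τ e) ∪ ((runStep M accept V A e : Finset E) : Set E))) := by
  rcases hA with ⟨hAN, hAI, hAt⟩
  by_cases hac : accept A e (V e)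
  · have hac' := (hacc A e).1 hac
    have heA : e ∉ M.closure (A : Set E) := fun h => hac'.2 (cl_mono Set.subset_union_right h)
    have hind : M.Indep ((insert e A : Finset E) : Set E) := by
      rw [Finset.coe_insert, hAI.insert_indep_iff]
      left
      exact ⟨by rw [hE]; exact Set.mem_univ _, heA⟩
    have hstep : runStep M accept V A e = insert e A := by
      unfold runStep
      rw [if_pos ⟨hac, hind⟩]
    rw [hstep]
    refine ⟨⟨?_, hind, ?_⟩, Finset.subset_insert _ _, ?_⟩
    · intro x hx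
      rcases Finset.mem_insert.1 hx with rfl | h1
      · exact hac'.1
      · exact hAN h1
    · intro t
      by_cases ht : t ≤ τ e
      · have hf : (insert e A).filter (fun g => t ≤ τ g) = insert e (A.filter (fun g => t ≤ τ g)) := by
          rw [Finset.filter_insert, if_pos ht]
        rw [hf]
        apply (hAt t).ins hE
        intro hcl
        apply hac'.2
        refine cl_mono ?_ hcl
        apply Set.union_subset_union (hD _ _ ht)
        intro x hx
        exact (Finset.mem_filter.1 (Finset.mem_coe.1 hx)).1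
      · have hf : (insert e A).filter (fun g => t ≤ τ g) = A.filter (fun g => t ≤ τ g) := by
          rw [Finset.filter_insert, if_neg ht]
        rw [hf]
        exact hAt t
    · intro _
      apply sub_cl hE
      exact Or.inr (by simp)
  · have hstep : runStep M accept V A e = A := by
      simp [runStep, hac]
    rw [hstep]
    refine ⟨⟨hAN, hAI, hAt⟩, Finset.Subset.refl _, ?_⟩
    intro heN
    by_contra hcon
    exact hac ((hacc A e).2 ⟨heN, hcon⟩)

lemma foldl_spec (hE : M.E = Set.univ) (hD : ∀ s t, s ≤ t → D s ⊆ D t)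
    (accept : Finset E → E → ℝ≥0 → Prop) (V : E → ℝ≥0)
    (hacc : ∀ A e, accept A e (V e) ↔ e ∈ N ∧ e ∉ M.closure (D (τ e) ∪ (A : Set E)))
    (l : List E) : ∀ {A : Finset E}, RunInv D τ N M A →
    RunInv D τ N M (l.foldl (runStep M accept V) A) ∧ A ⊆ l.foldl (runStep M accept V) A ∧
      (∀ e ∈ l, e ∈ N → e ∈ M.closure (D (τ e) ∪ ((l.foldl (runStep M accept V) A : Finset E) : Set E))) := by
  induction l with
  | nil =>
    intro A hA
    simp only [List.foldl_nil]
    exact ⟨hA, Finset.Subset.refl _, by simp⟩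
  | cons x l ih =>
    intro A hA
    simp only [List.foldl_cons]
    obtain ⟨h1, h2, h3⟩ := runStep_spec hE hD accept V hacc hA x
    obtain ⟨h4, h5, h6⟩ := ih h1
    refine ⟨h4, h2.trans h5, ?_⟩
    intro e he heN
    rcases List.mem_cons.1 he with rfl | h7
    · refine cl_mono ?_ (h3 heN)
      apply Set.union_subset_union_right
      exact_mod_cast h5
    · exact h6 e h7 heN

end Run

lemma runInv_empty (D : ℕ → Set E) (τ : E → ℕ) (N : Finset E) : RunInv D τ N M ∅ := by
  refine ⟨Finset.empty_subset _, by simp, ?_⟩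
  intro t g hg
  simp at hg

/-- The block form of the spanning property. -/
lemma span_block (hE : M.E = Set.univ) {D : ℕ → Set E} {τ : E → ℕ} {N : Finset E}
    (hD : ∀ s t, s ≤ t → D s ⊆ D t)
    (hN : ∀ e ∈ N, ∀ f ∈ N, τ e < τ f → e ∈ M.closure (D (τ f)))
    {A : Finset E} (hA : RunInv D τ N M A) {e : E} (heN : e ∈ N)
    (hcl : e ∈ M.closure (D (τ e) ∪ (A : Set E))) :
    e ∈ M.closure (D (τ e) ∪ ((A.filter (fun g => τ g = τ e) : Finset E) : Set E)) := by
  rcases hA with ⟨hAN, _, hAt⟩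
  set t := τ e with ht
  set Ab := A.filter (fun g => τ g = t) with hAb
  set J := A.filter (fun g => t < τ g) with hJ
  have hcl' : e ∈ M.closure ((D t ∪ (Ab : Set E)) ∪ (J : Set E)) := by
    refine cl_sub_cl ?_ hcl
    rintro x (hx | hx)
    · exact sub_cl hE _ (Or.inl (Or.inl hx))
    · have hxA : x ∈ A := Finset.mem_coe.1 hx
      rcases lt_trichotomy (τ x) t with h1 | h1 | h1
      · have h2 := hN x (hAN hxA) e heN h1
        exact cl_mono (fun y hy => Or.inl (Or.inl hy)) h2
      · apply sub_cl hE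
        refine Or.inl (Or.inr ?_)
        simp [hAb, hxA, h1]
      · apply sub_cl hE
        refine Or.inr ?_
        simp [hJ, hxA, h1]
  by_cases hJe : J.Nonempty
  · obtain ⟨f, hfJ, hfmin⟩ := Finset.exists_min_image J τ hJe
    have hfA : f ∈ A := (Finset.mem_filter.1 hfJ).1
    have hft : t < τ f := (Finset.mem_filter.1 hfJ).2
    have hJfil : J = A.filter (fun g => τ f ≤ τ g) := by
      ext x
      simp only [hJ, Finset.mem_filter]
      constructor
      · rintro ⟨h1, h2⟩
        exact ⟨h1, hfmin x (Finset.mem_filter.2 ⟨h1, h2⟩)⟩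
      · rintro ⟨h1, h2⟩
        exact ⟨h1, lt_of_lt_of_le hft h2⟩
    have hind : IndepOver M (D (τ f)) J := by
      rw [hJfil]
      exact hAt (τ f)
    have hP : D t ∪ (Ab : Set E) ⊆ M.closure (D (τ f)) := by
      rintro x (hx | hx)
      · exact sub_cl hE _ (hD _ _ hft.le hx)
      · have hxA := Finset.mem_filter.1 (Finset.mem_coe.1 hx)
        exact hN x (hAN hxA.1) f (hAN hfA) (by rw [hxA.2]; exact hft)
    have hex : e ∈ M.closure (D (τ f)) := hN e heN f (hAN hfA) hft
    exact mem_cl_of_indepOver hE hP hex J hind hcl'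
  · have hJ0 : J = ∅ := Finset.not_nonempty_iff_eq_empty.1 hJe
    rw [hJ0] at hcl'
    simpa using hcl'

/-- Main chain bound. -/
theorem chain_gain {α : Type*} [LinearOrder α] (hE : M.E = Set.univ)
    (D : ℕ → Set E) (τ : E → ℕ) (N : Finset E)
    (hD : ∀ s t, s ≤ t → D s ⊆ D t)
    (hN : ∀ e ∈ N, ∀ f ∈ N, τ e < τ f → e ∈ M.closure (D (τ f)))
    (κ : E → α) (hκ : Function.Injective κ) (w : E → ℝ≥0) (hw : ∀ f e, κ f < κ e → w f ≤ w e)
    (accept : Finset E → E → ℝ≥0 → Prop) (V : E → ℝ≥0)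
    (hacc : ∀ A e, accept A e (V e) ↔ e ∈ N ∧ e ∉ M.closure (D (τ e) ∪ (A : Set E)))
    (l : List E) (hl : ∀ e, e ∈ l) :
    l.foldl (runStep M accept V) ∅ ⊆ N ∧
    ∑ e ∈ N.filter (fun e => e ∉ M.closure (D (τ e) ∪ {f | f ∈ N ∧ τ f = τ e ∧ κ f < κ e})), w e
      ≤ ∑ e ∈ l.foldl (runStep M accept V) ∅, w e := by
  obtain ⟨hInv, -, hspan⟩ := foldl_spec hE hD accept V hacc l (runInv_empty D τ N (M := M))
  set A := l.foldl (runStep M accept V) ∅ with hA
  have hAN : A ⊆ N := hInv.1
  refine ⟨hAN, ?_⟩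
  set T := N.image τ with hT
  set L := N.filter (fun e => e ∉ M.closure (D (τ e) ∪ {f | f ∈ N ∧ τ f = τ e ∧ κ f < κ e})) with hL
  have h1 : ∑ e ∈ L, w e = ∑ t ∈ T, ∑ e ∈ L.filter (fun e => τ e = t), w e := by
    rw [Finset.sum_fiberwise_of_maps_to]
    intro x hx
    exact Finset.mem_image_of_mem τ (Finset.mem_filter.1 hx).1
  have h2 : ∑ e ∈ A, w e = ∑ t ∈ T, ∑ e ∈ A.filter (fun e => τ e = t), w e := by
    rw [Finset.sum_fiberwise_of_maps_to]
    intro x hx
    exact Finset.mem_image_of_mem τ (hAN hx)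
  rw [h1, h2]
  apply Finset.sum_le_sum
  intro t _
  set Nt := N.filter (fun e => τ e = t) with hNt
  have hsub : L.filter (fun e => τ e = t) ⊆ kept M (D t) Nt κ := by
    intro x hx
    obtain ⟨hxL, hxt⟩ := Finset.mem_filter.1 hx
    obtain ⟨hxN, hxcl⟩ := Finset.mem_filter.1 hxL
    refine mem_kept.2 ⟨Finset.mem_filter.2 ⟨hxN, hxt⟩, ?_⟩
    intro hc
    apply hxcl
    refine cl_mono ?_ hc
    rw [hxt]
    apply Set.union_subset_union_right
    rintro y ⟨hy1, hy2⟩
    obtain ⟨hy3, hy4⟩ := Finset.mem_filter.1 hy1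
    exact ⟨hy3, hy4, hy2⟩
  refine le_trans (Finset.sum_le_sum_of_subset hsub) ?_
  apply sum_kept_le hE hκ w hw _ _ rfl
  · intro x hx
    obtain ⟨h3, h4⟩ := Finset.mem_filter.1 hx
    exact Finset.mem_filter.2 ⟨hAN h3, h4⟩
  · apply (hInv.2.2 t).mono
    intro x hx
    obtain ⟨h3, h4⟩ := Finset.mem_filter.1 hx
    exact Finset.mem_filter.2 ⟨h3, h4.ge⟩
  · intro x hx
    obtain ⟨h3, h4⟩ := Finset.mem_filter.1 hx
    have h5 := span_block hE hD hN hInv h3 (hspan x (hl x) h3)
    rw [h4] at h5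
    exact h5

end Vale.Agent.Lib.P331
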