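import Vale.Agent.Lib.P331.Sum

/-!
The rule with its modes, and the pointwise secretary bound over all seeds.
-/

open scoped ENNReal NNReal

namespace Vale.Agent.Lib.P331

open Classical Finset

set_option linter.unusedSectionVars false

variable {E : Type} [Fintype E]

/-- The anchor: the largest sample among non-loop elements in a sample role. -/
noncomputable def anchor (M : Matroid E) (ρ : E → Fin 3) (S : E → ℝ≥0) : ℝ≥0 :=
  (univ.filter (fun f => ρ f ≠ 2 ∧ f ∉ M.closure ∅)).sup S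

/-- The top mode: accept the first arrival beating all samples in a sample role. -/
def topAccept (M : Matroid E) (ρ : E → Fin 3) (S : E → ℝ≥0) (A : Finset E) (e : E) (x : ℝ≥0) : Prop :=
  ρ e = 2 ∧ A = ∅ ∧ ∀ f, ρ f ≠ 2 → f ∉ M.closure ∅ → S f < x ∨ (S f = x ∧ idx e < idx f)

/-- The rule with numeric mode `m` and offset `θ`. -/
def ruleN (M : Matroid E) (U Λ m θ : ℕ) (ρ : E → Fin 3) (S : E → ℝ≥0) (A : Finset E) (e : E)
    (x : ℝ≥0) : Prop :=
  (m ≤ U ∧ blockAccept M (anchor M ρ S) S ρ (2 ^ m) θ Λ A e x) ∨ (U < m ∧ topAccept M ρ S A e x)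

/-- The gain of the rule at weights `u` along the list `l`. -/
noncomputable def gainN (M : Matroid E) (U Λ m θ : ℕ) (ρ : E → Fin 3) (u : E → ℝ≥0) (l : List E) : ℝ≥0 :=
  ∑ e ∈ l.foldl (runStep M (ruleN M U Λ m θ ρ u) u) ∅, u e

section

variable {M : Matroid E} {u : E → ℝ≥0} {es : E} {U Λ : ℕ}

lemma anchor_eq (hes : es ∉ M.closure ∅) (hstar : ∀ f, f ∉ M.closure ∅ → keyH u es ≤ keyH u f)
    {ρ : E → Fin 3} (hρ : ρ es ≠ 2) : anchor M ρ u = u es := by
  apply le_antisymm
  · apply Finset.sup_le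
    intro f hf
    obtain ⟨_, h2⟩ := (mem_filter.1 hf).2
    by_contra hc
    push Not at hc
    exact absurd (keyH_lt_iff.2 (Or.inl hc)) (not_lt.2 (hstar f h2))
  · exact Finset.le_sup (f := u) (mem_filter.2 ⟨mem_univ _, hρ, hes⟩)

lemma gain_block (hE : M.E = Set.univ) (hes : es ∉ M.closure ∅)
    (hstar : ∀ f, f ∉ M.closure ∅ → keyH u es ≤ keyH u f)
    {ρ : E → Fin 3} (hρ : ρ es = 0) {m θ : ℕ} (hm : m ≤ U) (l : List E) (hl : ∀ e, e ∈ l) :
    ∑ e ∈ univ.filter (fun e => KeptEvt M (u es) u ρ (2 ^ m) θ Λ e), rw' (u es) (u e)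
      ≤ gainN M U Λ m θ ρ u l := by
  have h1 : ruleN M U Λ m θ ρ u = blockAccept M (u es) u ρ (2 ^ m) θ Λ := by
    funext A e x
    have ha : anchor M ρ u = u es := anchor_eq hes hstar (by rw [hρ]; decide)
    simp only [ruleN, ha, eq_iff_iff]
    constructor
    · rintro (⟨_, h⟩ | ⟨h1, _⟩)
      · exact h
      · omega
    · intro h
      exact Or.inl ⟨hm, h⟩
  unfold gainN
  rw [h1]
  exact block_gain hE _ u ρ _ θ Λ (by positivity) l hl

lemma mem_foldl_of_mem (accept : Finset E → E → ℝ≥0 → Prop) (V : E → ℝ≥0) {x : E} (l : List E) :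
    ∀ A : Finset E, x ∈ A → x ∈ l.foldl (runStep M accept V) A := by
  induction l with
  | nil => intro A h; exact h
  | cons a l ih =>
    intro A h
    simp only [List.foldl_cons]
    apply ih
    unfold runStep
    split_ifs
    · exact mem_insert_of_mem h
    · exact h

lemma gain_top (hE : M.E = Set.univ) (hes : es ∉ M.closure ∅)
    (hstar : ∀ f, f ∉ M.closure ∅ → keyH u es ≤ keyH u f)
    {ρ : E → Fin 3} (hρ : ρ es = 2)
    (h2 : ∀ e, e ≠ es → e ∉ M.closure ∅ → ρ e = 2 →
      ∃ f, ρ f ≠ 2 ∧ f ∉ M.closure ∅ ∧ keyH u f < keyH u e)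
    {m θ : ℕ} (hm : U < m) (l : List E) (hl : ∀ e, e ∈ l) :
    u es ≤ gainN M U Λ m θ ρ u l := by
  have h1 : ruleN M U Λ m θ ρ u = topAccept M ρ u := by
    funext A e x
    simp only [ruleN, eq_iff_iff]
    constructor
    · rintro (⟨h1, _⟩ | ⟨_, h⟩)
      · omega
      · exact h
    · intro h
      exact Or.inr ⟨hm, h⟩
  unfold gainN
  rw [h1]
  have hnil : ∀ e, M.Indep ((insert e (∅ : Finset E) : Finset E) : Set E) → e ∉ M.closure ∅ := by
    intro e h
    have h' : M.Indep (Insert.insert e (∅ : Set E)) := by simpa using h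
    rcases (M.empty_indep.insert_indep_iff).1 h' with h3 | h3
    · exact h3.2
    · exact absurd h3 (Set.notMem_empty _)
  have hstep_es : runStep M (topAccept M ρ u) u ∅ es = {es} := by
    have hacc : topAccept M ρ u ∅ es (u es) := by
      refine ⟨hρ, rfl, ?_⟩
      intro f hf1 hf2
      have hne : es ≠ f := by
        rintro rfl
        exact hf1 hρ
      have hlt : keyH u es < keyH u f := lt_of_le_of_ne (hstar f hf2) (fun h => hne (keyH_inj u h))
      rcases keyH_lt_iff.1 hlt with h3 | ⟨h3, h4⟩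
      · exact Or.inl h3
      · exact Or.inr ⟨h3.symm, h4⟩
    have hind : M.Indep ((insert es (∅ : Finset E) : Finset E) : Set E) := by
      have : M.Indep (Insert.insert es (∅ : Set E)) := by
        refine (M.empty_indep.insert_indep_iff).2 (Or.inl ⟨?_, hes⟩)
        rw [hE]; exact Set.mem_univ _
      simpa using this
    unfold runStep
    rw [if_pos ⟨hacc, hind⟩]
    rfl
  have hstep_ne : ∀ e, e ≠ es → runStep M (topAccept M ρ u) u ∅ e = ∅ := by
    intro e hne
    unfold runStep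
    rw [if_neg]
    rintro ⟨⟨h3, _, h5⟩, h4⟩
    obtain ⟨f, hf1, hf2, hf3⟩ := h2 e hne (hnil e h4) h3
    rcases h5 f hf1 hf2 with h6 | ⟨h6, h7⟩
    · rcases keyH_lt_iff.1 hf3 with h8 | ⟨h8, _⟩
      · exact absurd h6 (not_lt.2 h8.le)
      · rw [h8] at h6
        exact lt_irrefl _ h6
    · rcases keyH_lt_iff.1 hf3 with h8 | ⟨_, h8⟩
      · rw [h6] at h8
        exact lt_irrefl _ h8
      · omega
  have key : ∀ l : List E, es ∈ l → es ∈ l.foldl (runStep M (topAccept M ρ u) u) ∅ := by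
    intro l
    induction l with
    | nil => intro h; simp at h
    | cons a l ih =>
      intro h
      simp only [List.foldl_cons]
      by_cases ha : a = es
      · subst ha
        rw [hstep_es]
        exact mem_foldl_of_mem _ _ l _ (mem_singleton_self _)
      · rw [hstep_ne a ha]
        rcases List.mem_cons.1 h with h1 | h1
        · exact absurd h1.symm ha
        · exact ih h1
  exact single_le_sum (f := u) (fun _ _ => zero_le) (key l (hl es))

lemma indepOver_of_indep {I : Finset E} (h : M.Indep (I : Set E)) : IndepOver M ∅ I := by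
  intro g hg
  rw [Set.empty_union]
  exact h.notMem_closure_sdiff_of_mem hg

lemma indep_of_indepOver (hE : M.E = Set.univ) {I : Finset E} (h : IndepOver M ∅ I) :
    M.Indep (I : Set E) := by
  rw [Matroid.indep_iff_forall_notMem_closure_sdiff (by rw [hE]; exact Set.subset_univ _)]
  intro g hg
  have := h g hg
  rwa [Set.empty_union] at this

lemma card_le_rank (hE : M.E = Set.univ) {I : Finset E} (h : M.Indep (I : Set E)) :
    I.card ≤ M.eRank.toNat := by
  have h1 := h.encard_le_eRank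
  have hfin : M.eRank ≠ ⊤ := by
    have : M.Finite := ⟨by rw [hE]; exact Set.toFinite _⟩
    exact (Matroid.eRank_ne_top_iff M).2 inferInstance
  have h2 : ((I : Set E).encard) = (I.card : ℕ∞) := Set.encard_coe_eq_coe_finsetCard I
  rw [h2] at h1
  have h3 := ENat.toNat_le_toNat h1 hfin
  simpa using h3

/-- Rounded value bound. -/
lemma le_two_rw' {W x : ℝ≥0} (hx : x ≤ W) : x ≤ 2 * rw' W x := by
  unfold rw'
  rcases Nat.eq_zero_or_pos (lev W x) with h0 | hpos
  · rw [h0]
    simp only [pow_zero, div_one]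
    calc x ≤ W := hx
      _ ≤ 2 * W := by
        have : (1 : ℝ≥0) ≤ 2 := by norm_num
        calc W = 1 * W := by ring
          _ ≤ 2 * W := by gcongr
  · have h1 : lev W x - 1 < lev W x := by omega
    have h2 := not_le_of_lt_lev h1
    push Not at h2
    have h3 : (2 : ℝ≥0) ^ lev W x = 2 * 2 ^ (lev W x - 1) := by
      rw [← pow_succ']
      congr 1
      omega
    rw [h3]
    have h4 : (0 : ℝ≥0) < 2 ^ (lev W x - 1) := by positivity
    have h5 : 2 * (W / (2 * 2 ^ (lev W x - 1))) = W / 2 ^ (lev W x - 1) := by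
      field_simp
    rw [h5, le_div_iff₀ h4]
    exact h2.le

/-- Pointwise secretary bound: summing the rule's guaranteed gain over all modes, offsets and role
vectors dominates every independent set. -/
theorem secretary_bound (hE : M.E = Set.univ) (hr : M.eRank.toNat ≤ 2 ^ Λ) (hU : Λ ≤ 2 ^ U)
    (u : E → ℝ≥0) :
    ∃ B : ℕ → ℕ → (E → Fin 3) → ℝ≥0,
      (∀ m θ ρ (l : List E), m < U + 2 → (∀ e, e ∈ l) → B m θ ρ ≤ gainN M U Λ m θ ρ u l) ∧
      (∀ I : Finset E, M.Indep (I : Set E) →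
        ((2 ^ U * 3 ^ Fintype.card E : ℕ) : ℝ≥0) * ∑ e ∈ I, u e ≤
          18 * ∑ m ∈ range (U + 2), ∑ θ ∈ range (3 * 2 ^ U), ∑ ρ : E → Fin 3, B m θ ρ) := by
  set G := kept M ∅ univ (keyH u) with hG
  have hIG : ∀ I : Finset E, M.Indep (I : Set E) → ∑ e ∈ I, u e ≤ ∑ e ∈ G, u e := by
    intro I hI
    apply sum_le_kept hE u _ _ I rfl (subset_univ _) (indepOver_of_indep hI)
    intro f e h
    rcases keyH_lt_iff.1 h with h1 | ⟨h1, _⟩
    · exact h1.le
    · exact h1.ge
  by_cases hne : G.Nonempty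
  swap
  · refine ⟨fun _ _ _ => 0, fun _ _ _ _ _ _ => zero_le, ?_⟩
    intro I hI
    have h1 := hIG I hI
    rw [not_nonempty_iff_eq_empty.1 hne, sum_empty] at h1
    have h2 : ∑ e ∈ I, u e = 0 := le_antisymm h1 zero_le
    rw [h2]
    simp
  obtain ⟨es, hesG, hmin⟩ := exists_min_image G (keyH u) hne
  have hGc : ∀ e ∈ G, e ∉ M.closure {f | keyH u f < keyH u e} := by
    intro e he h
    apply (mem_kept.1 he).2
    refine cl_mono ?_ h
    intro f hf
    exact Or.inr ⟨mem_univ _, hf⟩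
  have hes : es ∉ M.closure ∅ := by
    intro h
    exact hGc es hesG (cl_mono (Set.empty_subset _) h)
  have hstar : ∀ f, f ∉ M.closure ∅ → keyH u es ≤ keyH u f := by
    intro f hf
    by_contra hlt
    push Not at hlt
    have hfG : f ∉ G := fun h => absurd (hmin f h) (not_le.2 hlt)
    apply hf
    refine cl_mono ?_ (mem_cl_kept_lt hE (mem_univ f) hfG)
    rintro k (hk | ⟨hk1, hk2⟩)
    · exact hk
    · exact absurd (lt_trans hk2 hlt) (not_lt.2 (hmin k hk1))
  set W := u es with hW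
  have hleW : ∀ g ∈ G, u g ≤ W := by
    intro g hg
    by_contra hc
    push Not at hc
    exact absurd (keyH_lt_iff.2 (Or.inl hc)) (not_lt.2 (hmin g hg))
  set G' := (G.erase es).filter (fun g => ∃ n, n ≤ Λ ∧ W ≤ u g * 2 ^ n) with hG'
  have hG'mem : ∀ e ∈ G', e ≠ es ∧ e ∈ G ∧ ∃ n, n ≤ Λ ∧ W ≤ u e * 2 ^ n := by
    intro e he
    obtain ⟨h1, h2⟩ := mem_filter.1 he
    obtain ⟨h3, h4⟩ := mem_erase.1 h1
    exact ⟨h3, h4, h2⟩
  -- the value of the greedy set
  have hsumG : ∑ e ∈ G, u e ≤ 2 * W + 2 * ∑ e ∈ G', rw' W (u e) := by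
    rw [← add_sum_erase G u hesG,
      ← sum_filter_add_sum_filter_not (G.erase es) (fun g => ∃ n, n ≤ Λ ∧ W ≤ u g * 2 ^ n)]
    set Oth := (G.erase es).filter (fun g => ¬ ∃ n, n ≤ Λ ∧ W ≤ u g * 2 ^ n) with hOth
    have h1 : ∑ e ∈ G', u e ≤ 2 * ∑ e ∈ G', rw' W (u e) := by
      rw [mul_sum]
      apply sum_le_sum
      intro e he
      exact le_two_rw' (hleW e (hG'mem e he).2.1)
    have h2 : ∑ e ∈ Oth, u e ≤ W := by
      have h3 : (∑ e ∈ Oth, u e) * 2 ^ Λ ≤ W * 2 ^ Λ := by
        rw [sum_mul]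
        calc ∑ e ∈ Oth, u e * 2 ^ Λ ≤ ∑ _e ∈ Oth, W := by
              apply sum_le_sum
              intro e he
              have h4 := (mem_filter.1 he).2
              push Not at h4
              exact (h4 Λ (le_refl _)).le
          _ = (Oth.card : ℝ≥0) * W := by rw [sum_const, nsmul_eq_mul]
          _ ≤ W * 2 ^ Λ := by
              rw [mul_comm]
              apply mul_le_mul_right
              have h5 : Oth.card ≤ 2 ^ Λ := by
                have h6 : Oth.card ≤ G.card :=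
                  card_le_card ((filter_subset _ _).trans (erase_subset _ _))
                have h7 : G.card ≤ M.eRank.toNat :=
                  card_le_rank hE (indep_of_indepOver hE (indepOver_kept hE (keyH_inj u)
                  (F := ∅) (N := univ)))
                omega
              exact_mod_cast h5
      exact le_of_mul_le_mul_right h3 (by positivity)
    calc u es + (∑ e ∈ G', u e + ∑ e ∈ Oth, u e)
        ≤ W + (2 * ∑ e ∈ G', rw' W (u e) + W) := by gcongr
      _ = 2 * W + 2 * ∑ e ∈ G', rw' W (u e) := by ring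
  -- role vectors for the top mode
  obtain ⟨Gd, hGd1, hGd2⟩ : ∃ Gd : Finset (E → Fin 3),
      (∀ ρ ∈ Gd, ρ es = 2 ∧ ∀ e, e ≠ es → e ∉ M.closure ∅ → ρ e = 2 →
        ∃ f, ρ f ≠ 2 ∧ f ∉ M.closure ∅ ∧ keyH u f < keyH u e) ∧
      2 * 3 ^ Fintype.card E ≤ 9 * Gd.card := by
    set Nl := univ.filter (fun f => f ≠ es ∧ f ∉ M.closure ∅) with hNl
    by_cases hNle : Nl.Nonempty
    · obtain ⟨a, ha, hamin⟩ := exists_min_image Nl (keyH u) hNle
      obtain ⟨ha1, ha2⟩ := (mem_filter.1 ha).2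
      refine ⟨univ.filter (fun ρ : E → Fin 3 => ρ es ∈ ({2} : Finset (Fin 3)) ∧
        ρ a ∈ ({0, 1} : Finset (Fin 3))), ?_, ?_⟩
      · intro ρ hρ
        obtain ⟨h1, h2⟩ := (mem_filter.1 hρ).2
        have h1' : ρ es = 2 := by simpa using h1
        have h2' : ρ a ≠ 2 := by
          intro h3
          rw [h3] at h2
          exact absurd h2 (by decide)
        refine ⟨h1', ?_⟩
        intro e he1 he2 he3
        have hne : a ≠ e := by
          rintro rfl
          exact h2' he3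
        refine ⟨a, h2', ha2, ?_⟩
        have hmem : e ∈ Nl := mem_filter.2 ⟨mem_univ _, he1, he2⟩
        exact lt_of_le_of_ne (hamin e hmem) (fun h => hne (keyH_inj u h))
      · rw [card_two ha1]
        simp
    · have hNl0 : ∀ f, f ≠ es → f ∈ M.closure ∅ := by
        intro f hf
        by_contra hc
        exact hNle ⟨f, mem_filter.2 ⟨mem_univ _, hf, hc⟩⟩
      refine ⟨univ.filter (fun ρ : E → Fin 3 => ρ es ∈ ({2} : Finset (Fin 3))), ?_, ?_⟩
      · intro ρ hρ
        have h1 := (mem_filter.1 hρ).2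
        refine ⟨by simpa using h1, ?_⟩
        intro e he1 he2 _
        exact absurd (hNl0 e he1) he2
      · have h3 := card_one es ({2} : Finset (Fin 3))
        simp only [card_singleton, one_mul] at h3
        omega
  -- the guaranteed gains
  set B : ℕ → ℕ → (E → Fin 3) → ℝ≥0 := fun m θ ρ =>
    if m ≤ U then
      (if ρ es = 0 then
        ∑ e ∈ univ.filter (fun e => KeptEvt M W u ρ (2 ^ m) θ Λ e), rw' W (u e) else 0)
    else (if ρ ∈ Gd then W else 0) with hB
  refine ⟨B, ?_, ?_⟩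
  · intro m θ ρ l _ hl
    simp only [hB]
    split_ifs with h1 h2 h2
    · exact gain_block hE hes hstar h2 h1 l hl
    · exact zero_le
    · exact gain_top hE hes hstar (hGd1 ρ h2).1 (hGd1 ρ h2).2 (by omega) l hl
    · exact zero_le
  intro I hI
  have hinner : ∀ m ∈ range (U + 1), ∀ θ,
      ∑ e ∈ G', rw' W (u e) * (Kc M W u e es Λ (2 ^ m) θ : ℝ≥0) ≤ ∑ ρ : E → Fin 3, B m θ ρ := by
    intro m hm θ
    have hmU : m ≤ U := by
      have := mem_range.1 hm
      omega
    have hBm : ∀ ρ, B m θ ρ = if ρ es = 0 then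
        ∑ e ∈ univ.filter (fun e => KeptEvt M W u ρ (2 ^ m) θ Λ e), rw' W (u e) else 0 := by
      intro ρ
      simp only [hB, if_pos hmU]
    calc ∑ e ∈ G', rw' W (u e) * (Kc M W u e es Λ (2 ^ m) θ : ℝ≥0)
        = ∑ e ∈ G', ∑ _ρ ∈ (Om e es).filter (fun ρ => KeptEvt M W u ρ (2 ^ m) θ Λ e), rw' W (u e) := by
          apply sum_congr rfl
          intro e _
          rw [sum_const, nsmul_eq_mul, mul_comm]
          rfl
      _ ≤ ∑ e ∈ G', ∑ ρ : E → Fin 3,
            (if ρ es = 0 ∧ KeptEvt M W u ρ (2 ^ m) θ Λ e then rw' W (u e) else 0) := by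
          apply sum_le_sum
          intro e _
          rw [← sum_filter]
          apply sum_le_sum_of_subset
          intro ρ hρ
          obtain ⟨h1, h2⟩ := mem_filter.1 hρ
          exact mem_filter.2 ⟨mem_univ _, (mem_filter.1 h1).2.2, h2⟩
      _ = ∑ ρ : E → Fin 3, ∑ e ∈ G',
            (if ρ es = 0 ∧ KeptEvt M W u ρ (2 ^ m) θ Λ e then rw' W (u e) else 0) := sum_comm
      _ ≤ ∑ ρ : E → Fin 3, B m θ ρ := by
          apply sum_le_sum
          intro ρ _
          rw [hBm]
          split_ifs with h0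
          · simp only [h0, true_and]
            rw [← sum_filter]
            apply sum_le_sum_of_subset
            intro e he
            exact mem_filter.2 ⟨mem_univ _, (mem_filter.1 he).2⟩
          · simp [h0]
  set Z : ℕ := 2 ^ U * 3 ^ Fintype.card E with hZ
  set X := ∑ m ∈ range (U + 1), ∑ θ ∈ range (3 * 2 ^ U), ∑ ρ : E → Fin 3, B m θ ρ with hX
  set Y := ∑ θ ∈ range (3 * 2 ^ U), ∑ ρ : E → Fin 3, B (U + 1) θ ρ with hY
  have hblock : (Z : ℝ≥0) * ∑ e ∈ G', rw' W (u e) ≤ 9 * X := by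
    have h1 : ∀ e ∈ G', (Z : ℝ≥0) ≤ 9 * ((∑ m ∈ range (U + 1), ∑ θ ∈ range (3 * 2 ^ U),
        Kc M W u e es Λ (2 ^ m) θ : ℕ) : ℝ≥0) := by
      intro e he
      obtain ⟨he1, he2, n, hn, hnW⟩ := hG'mem e he
      have h2 := tele (Λ := Λ) (es := es) (e := e) (M := M) (W := W) (u := u) (Ne.symm he1)
        (hGc e he2) hn hnW hU
      have h9 := card_Om (Ne.symm he1)
      have h3 : Z ≤ 9 * ∑ m ∈ range (U + 1), ∑ θ ∈ range (3 * 2 ^ U),
          Kc M W u e es Λ (2 ^ m) θ := by
        rw [hZ, ← h9]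
        calc 2 ^ U * (9 * (Om e es).card) = 9 * (2 ^ U * (Om e es).card) := by ring
          _ ≤ _ := Nat.mul_le_mul_left _ h2
      exact_mod_cast h3
    calc (Z : ℝ≥0) * ∑ e ∈ G', rw' W (u e)
        = ∑ e ∈ G', rw' W (u e) * (Z : ℝ≥0) := by
          rw [mul_sum]
          apply sum_congr rfl
          intro e _
          ring
      _ ≤ ∑ e ∈ G', rw' W (u e) * (9 * ((∑ m ∈ range (U + 1), ∑ θ ∈ range (3 * 2 ^ U),
            Kc M W u e es Λ (2 ^ m) θ : ℕ) : ℝ≥0)) := by
          apply sum_le_sum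
          intro e he
          gcongr
          exact h1 e he
      _ = 9 * ∑ m ∈ range (U + 1), ∑ θ ∈ range (3 * 2 ^ U),
            ∑ e ∈ G', rw' W (u e) * (Kc M W u e es Λ (2 ^ m) θ : ℝ≥0) := by
          have h4 : ∀ e, rw' W (u e) * (9 * ((∑ m ∈ range (U + 1), ∑ θ ∈ range (3 * 2 ^ U),
              Kc M W u e es Λ (2 ^ m) θ : ℕ) : ℝ≥0)) =
              9 * ∑ m ∈ range (U + 1), ∑ θ ∈ range (3 * 2 ^ U),
                rw' W (u e) * (Kc M W u e es Λ (2 ^ m) θ : ℝ≥0) := by
            intro e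
            push_cast
            rw [mul_left_comm]
            simp only [mul_sum]
          rw [sum_congr rfl (fun e _ => h4 e), ← mul_sum]
          congr 1
          rw [sum_comm]
          apply sum_congr rfl
          intro m _
          rw [sum_comm]
      _ ≤ 9 * X := by
          exact mul_le_mul_right (sum_le_sum fun m hm => sum_le_sum fun θ _ => hinner m hm θ) _
  have htop : (Z : ℝ≥0) * W ≤ 9 * Y := by
    have hBt : ∀ θ ρ, B (U + 1) θ ρ = if ρ ∈ Gd then W else 0 := by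
      intro θ ρ
      have : ¬ (U + 1 ≤ U) := by omega
      simp only [hB, if_neg this]
    have hY' : Y = ((3 * 2 ^ U * Gd.card : ℕ) : ℝ≥0) * W := by
      rw [hY]
      simp only [hBt, sum_ite_mem, univ_inter, sum_const, card_range, nsmul_eq_mul]
      push_cast
      ring
    rw [hY']
    have h1 : Z ≤ 9 * (3 * 2 ^ U * Gd.card) := by
      rw [hZ]
      have h3 : 1 ≤ 3 ^ Fintype.card E := Nat.one_le_pow _ _ (by norm_num)
      calc 2 ^ U * 3 ^ Fintype.card E ≤ 2 ^ U * (3 * (2 * 3 ^ Fintype.card E)) := by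
            apply Nat.mul_le_mul_left
            omega
        _ ≤ 2 ^ U * (3 * (9 * Gd.card)) := by
            apply Nat.mul_le_mul_left
            omega
        _ = 9 * (3 * 2 ^ U * Gd.card) := by ring
    have h2 : (Z : ℝ≥0) ≤ 9 * ((3 * 2 ^ U * Gd.card : ℕ) : ℝ≥0) := by exact_mod_cast h1
    calc (Z : ℝ≥0) * W ≤ 9 * ((3 * 2 ^ U * Gd.card : ℕ) : ℝ≥0) * W := by gcongr
      _ = _ := by ring
  rw [sum_range_succ]
  have h5 := hIG I hI
  calc (Z : ℝ≥0) * ∑ e ∈ I, u e ≤ (Z : ℝ≥0) * (2 * W + 2 * ∑ e ∈ G', rw' W (u e)) := by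
        gcongr
        exact le_trans h5 hsumG
    _ = 2 * ((Z : ℝ≥0) * W) + 2 * ((Z : ℝ≥0) * ∑ e ∈ G', rw' W (u e)) := by ring
    _ ≤ 2 * (9 * Y) + 2 * (9 * X) := by gcongr
    _ = 18 * (X + Y) := by ring

end

end Vale.Agent.Lib.P331
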