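import Vale.Agent.Lib.P331.Count

/-!
Summation over offsets and block lengths: the telescoping count for one element.
-/

open scoped ENNReal NNReal

namespace Vale.Agent.Lib.P331

open Classical Finset

set_option linter.unusedSectionVars false

variable {E : Type} [Fintype E]

lemma window_sum (n : ℕ) (hn : 0 < n) (g : ℕ → ℕ) (i : ℕ) :
    ∑ x ∈ range n, g ((i + x) % n) = ∑ x ∈ range n, g x := by
  induction i with
  | zero =>
    apply sum_congr rfl
    intro x hx
    rw [Nat.zero_add, Nat.mod_eq_of_lt (mem_range.1 hx)]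
  | succ i ih =>
    rw [← ih]
    obtain ⟨m, rfl⟩ : ∃ m, n = m + 1 := ⟨n - 1, by omega⟩
    rw [sum_range_succ, sum_range_succ']
    have h1 : (i + 1 + m) % (m + 1) = i % (m + 1) := by
      have : i + 1 + m = i + (m + 1) := by ring
      rw [this, Nat.add_mod_right]
    rw [h1, Nat.add_zero]
    congr 1
    apply sum_congr rfl
    intro x _
    congr 2
    ring

lemma periodic_sum (n : ℕ) (hn : 0 < n) (g : ℕ → ℕ) (i m : ℕ) :
    ∑ θ ∈ range (m * n), g ((i + θ) % n) = m * ∑ p ∈ range n, g p := by
  induction m with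
  | zero => simp
  | succ m ih =>
    rw [Nat.succ_mul, sum_range_add, ih, Nat.succ_mul]
    congr 1
    rw [← window_sum n hn g i]
    apply sum_congr rfl
    intro x _
    have : i + (m * n + x) = (i + x) + m * n := by ring
    rw [this, Nat.add_mul_mod_self_right]

lemma count_window (k U i : ℕ) (hk : k ≤ U) :
    ∑ θ ∈ range (3 * 2 ^ U), (if (i + θ) % (3 * 2 ^ k) < 2 ^ k then 1 else 0) = 2 ^ U := by
  have h1 : 3 * 2 ^ U = 2 ^ (U - k) * (3 * 2 ^ k) := by
    have : 2 ^ U = 2 ^ (U - k) * 2 ^ k := by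
      rw [← pow_add]; congr 1; omega
    rw [this]; ring
  have h2 : 2 ^ U = 2 ^ (U - k) * 2 ^ k := by
    rw [← pow_add]; congr 1; omega
  rw [h1, periodic_sum (3 * 2 ^ k) (by positivity) (fun p => if p < 2 ^ k then 1 else 0) i]
  rw [h2]
  congr 1
  have h3 : (range (3 * 2 ^ k)).filter (fun p => p < 2 ^ k) = range (2 ^ k) := by
    ext x
    simp only [mem_filter, mem_range]
    omega
  rw [← card_filter, h3, card_range]

/-- The base value for the block length `L`. -/
noncomputable def TT (M : Matroid E) (W : ℝ≥0) (u : E → ℝ≥0) (e es : E) (L : ℕ) : ℕ :=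
  if L = 1 then (Om e es).card else Hf M W u e es (lev W (u e) + L - 1)

/-- The kept count. -/
noncomputable def Kc (M : Matroid E) (W : ℝ≥0) (u : E → ℝ≥0) (e es : E) (Λ L θ : ℕ) : ℕ :=
  ((Om e es).filter (fun ρ => KeptEvt M W u ρ L θ Λ e)).card

section

variable {M : Matroid E} {W : ℝ≥0} {u : E → ℝ≥0} {L θ Λ : ℕ} {e es : E}

lemma class_bound (hne : es ≠ e) (hG : e ∉ M.closure {f | keyH u f < keyH u e})
    {n : ℕ} (hn : n ≤ Λ) (hnW : W ≤ u e * 2 ^ n) (hL : 0 < L)
    (hp : (lev W (u e) + θ) % (3 * L) < L) :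
    TT M W u e es L ≤ Kc M W u e es Λ L θ + Hf M W u e es (lev W (u e) + 2 * L) ∧
      (Λ ≤ 2 * L → TT M W u e es L ≤ Kc M W u e es Λ L θ) := by
  have h0 := count_kept (Λ := Λ) hne hG hn hnW hL hp
  set i := lev W (u e) with hi
  set p := (i + θ) % (3 * L) with hpdef
  have hA : TT M W u e es L ≤
      (if L - 1 - p = 0 then (Om e es).card else Hf M W u e es (i + (L - 1 - p))) := by
    unfold TT
    split_ifs with h1 h2 h2
    · exact le_refl _
    · omega
    · exact Hf_le_Om _ _ _ _ _ _
    · apply Hf_anti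
      omega
  have hdiv : 3 * L * tauOf W (u e) L θ + p = i + θ := by
    have := Nat.div_add_mod (i + θ) (3 * L)
    simpa [tauOf, hi, hpdef] using this
  constructor
  · refine le_trans hA (le_trans h0 ?_)
    apply Nat.add_le_add_left
    split_ifs
    · exact Nat.zero_le _
    · apply Hf_anti
      omega
  · intro hΛ
    refine le_trans hA (le_trans h0 ?_)
    have hdrop : θ + Λ < 3 * L * (tauOf W (u e) L θ + 1) := by
      rw [Nat.mul_add, Nat.mul_one]
      omega
    rw [if_pos hdrop]
    exact le_refl _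

/-- Summing the class bound over all offsets. -/
lemma class_sum (hne : es ≠ e) (hG : e ∉ M.closure {f | keyH u f < keyH u e})
    {n : ℕ} (hn : n ≤ Λ) (hnW : W ≤ u e * 2 ^ n) {k U : ℕ} (hk : k ≤ U) :
    2 ^ U * TT M W u e es (2 ^ k) ≤ ∑ θ ∈ range (3 * 2 ^ U), Kc M W u e es Λ (2 ^ k) θ +
      2 ^ U * Hf M W u e es (lev W (u e) + 2 * 2 ^ k) ∧
    (Λ ≤ 2 * 2 ^ k → 2 ^ U * TT M W u e es (2 ^ k) ≤ ∑ θ ∈ range (3 * 2 ^ U), Kc M W u e es Λ (2 ^ k) θ) := by
  set i := lev W (u e) with hi
  have hcw := count_window k U i hk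
  have hL : 0 < 2 ^ k := by positivity
  constructor
  · have key : ∀ θ ∈ range (3 * 2 ^ U),
        (if (i + θ) % (3 * 2 ^ k) < 2 ^ k then 1 else 0) * TT M W u e es (2 ^ k) ≤
        Kc M W u e es Λ (2 ^ k) θ +
          (if (i + θ) % (3 * 2 ^ k) < 2 ^ k then 1 else 0) * Hf M W u e es (i + 2 * 2 ^ k) := by
      intro θ _
      split_ifs with hp
      · simpa using (class_bound hne hG hn hnW hL hp).1
      · simp
    have hs := sum_le_sum key
    rw [sum_add_distrib, ← sum_mul, ← sum_mul, hcw] at hs
    exact hs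
  · intro hΛ
    have key : ∀ θ ∈ range (3 * 2 ^ U),
        (if (i + θ) % (3 * 2 ^ k) < 2 ^ k then 1 else 0) * TT M W u e es (2 ^ k) ≤
        Kc M W u e es Λ (2 ^ k) θ := by
      intro θ _
      split_ifs with hp
      · simpa using (class_bound hne hG hn hnW hL hp).2 hΛ
      · simp
    have hs := sum_le_sum key
    rw [← sum_mul, hcw] at hs
    exact hs

/-- The telescoping bound over all block classes. -/
theorem tele (hne : es ≠ e) (hG : e ∉ M.closure {f | keyH u f < keyH u e})
    {n : ℕ} (hn : n ≤ Λ) (hnW : W ≤ u e * 2 ^ n) {U : ℕ} (hU : Λ ≤ 2 ^ U) :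
    2 ^ U * (Om e es).card ≤
      ∑ k ∈ range (U + 1), ∑ θ ∈ range (3 * 2 ^ U), Kc M W u e es Λ (2 ^ k) θ := by
  have step : ∀ j, j ≤ U → 2 ^ U * (Om e es).card ≤
      ∑ k ∈ range j, ∑ θ ∈ range (3 * 2 ^ U), Kc M W u e es Λ (2 ^ k) θ +
        2 ^ U * TT M W u e es (2 ^ j) := by
    intro j
    induction j with
    | zero =>
      intro _
      simp [TT]
    | succ j ih =>
      intro hj
      have h1 := ih (by omega)
      have h2 := (class_sum (k := j) (U := U) hne hG hn hnW (by omega)).1
      have h3 : Hf M W u e es (lev W (u e) + 2 * 2 ^ j) ≤ TT M W u e es (2 ^ (j + 1)) := by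
        unfold TT
        have h4 : 2 ^ (j + 1) ≠ 1 := by
          have : 2 ≤ 2 ^ (j + 1) := by
            rw [pow_succ]
            have : 1 ≤ 2 ^ j := Nat.one_le_two_pow
            omega
          omega
        rw [if_neg h4]
        apply Hf_anti
        rw [pow_succ]
        have : 1 ≤ 2 ^ j := Nat.one_le_two_pow
        omega
      have h5 := Nat.mul_le_mul_left (2 ^ U) h3
      rw [sum_range_succ]
      omega
  have h1 := step U (le_refl _)
  have hL : Λ ≤ 2 * 2 ^ U := by omega
  have h2 := (class_sum (k := U) (U := U) hne hG hn hnW (le_refl _)).2 hL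
  rw [sum_range_succ]
  omega

end

/-! Counting role vectors. -/

lemma card_one (e : E) (A : Finset (Fin 3)) :
    3 * (univ.filter (fun ρ : E → Fin 3 => ρ e ∈ A)).card = A.card * 3 ^ Fintype.card E := by
  have h1 : univ.filter (fun ρ : E → Fin 3 => ρ e ∈ A) =
      Fintype.piFinset (fun f => if f = e then A else univ) := by
    ext ρ
    simp only [mem_filter, mem_univ, true_and, Fintype.mem_piFinset]
    constructor
    · intro h f
      by_cases hf : f = e
      · subst hf; simpa using h
      · simp [hf]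
    · intro h
      simpa using h e
  rw [h1, Fintype.card_piFinset]
  have h2 : ∀ f, ((if f = e then A else univ : Finset (Fin 3))).card = if f = e then A.card else 3 := by
    intro f
    split_ifs <;> simp
  simp only [h2]
  rw [← mul_prod_erase univ _ (mem_univ e)]
  simp only [if_true]
  have h3 : ∏ x ∈ univ.erase e, (if x = e then A.card else 3) = ∏ x ∈ univ.erase e, 3 := by
    apply prod_congr rfl
    intro x hx
    rw [if_neg (ne_of_mem_erase hx)]
  rw [h3]
  have h4 : 3 ^ Fintype.card E = 3 * ∏ x ∈ univ.erase e, 3 := by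
    rw [mul_prod_erase univ (fun _ => 3) (mem_univ e)]
    simp
  rw [h4]
  ring

lemma card_two {e a : E} (hne : a ≠ e) (A B : Finset (Fin 3)) :
    9 * (univ.filter (fun ρ : E → Fin 3 => ρ e ∈ A ∧ ρ a ∈ B)).card =
      A.card * B.card * 3 ^ Fintype.card E := by
  have h1 : univ.filter (fun ρ : E → Fin 3 => ρ e ∈ A ∧ ρ a ∈ B) =
      Fintype.piFinset (fun f => if f = e then A else if f = a then B else univ) := by
    ext ρ
    simp only [mem_filter, mem_univ, true_and, Fintype.mem_piFinset]
    constructor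
    · rintro ⟨h, h'⟩ f
      by_cases hf : f = e
      · subst hf; simpa using h
      · by_cases hf' : f = a
        · subst hf'; simpa [hf] using h'
        · simp [hf, hf']
    · intro h
      exact ⟨by simpa using h e, by simpa [hne] using h a⟩
  rw [h1, Fintype.card_piFinset]
  have h2 : ∀ f, ((if f = e then A else if f = a then B else univ : Finset (Fin 3))).card =
      if f = e then A.card else if f = a then B.card else 3 := by
    intro f
    split_ifs <;> simp
  simp only [h2]
  have hmem : a ∈ univ.erase e := mem_erase.2 ⟨hne, mem_univ _⟩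
  rw [← mul_prod_erase univ _ (mem_univ e), ← mul_prod_erase (univ.erase e) _ hmem]
  simp only [if_true, if_neg hne]
  have h3 : ∏ x ∈ (univ.erase e).erase a, (if x = e then A.card else if x = a then B.card else 3) =
      ∏ x ∈ (univ.erase e).erase a, 3 := by
    apply prod_congr rfl
    intro x hx
    have hxa := ne_of_mem_erase hx
    have hxe := ne_of_mem_erase (mem_of_mem_erase hx)
    rw [if_neg hxe, if_neg hxa]
  rw [h3]
  have h4 : 3 ^ Fintype.card E = 3 * (3 * ∏ x ∈ (univ.erase e).erase a, 3) := by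
    rw [mul_prod_erase (univ.erase e) (fun _ => 3) hmem, mul_prod_erase univ (fun _ => 3) (mem_univ e)]
    simp
  rw [h4]
  ring

lemma card_Om {e es : E} (hne : es ≠ e) : 9 * (Om e es).card = 3 ^ Fintype.card E := by
  have h := card_two hne ({2} : Finset (Fin 3)) ({0} : Finset (Fin 3))
  have h1 : (Om e es) = univ.filter (fun ρ : E → Fin 3 => ρ e ∈ ({2} : Finset (Fin 3)) ∧ ρ es ∈ ({0} : Finset (Fin 3))) := by
    ext ρ
    simp [Om]
  rw [h1, h]
  simp

end Vale.Agent.Lib.P331
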